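import Vale.Agent.P092.H160.Defs

/-!
Weak operator limits, positivity, the right regular representation and membership in group von Neumann algebras.
-/

namespace Vale.Agent.P092.H108
open Vale.Agent.P092.H160
open Filter Topology ContinuousLinearMap
open scoped InnerProductSpace ComplexOrder

section general

set_option linter.unusedSectionVars false

variable {H : Type*} [NormedAddCommGroup H] [InnerProductSpace ℂ H] [CompleteSpace H]

theorem star_apply_inner (T : H →L[ℂ] H) (u v : H) : ⟪(star T) u, v⟫_ℂ = ⟪u, T v⟫_ℂ :=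
  ContinuousLinearMap.adjoint_inner_left T v u

theorem nonneg_of_inner {T : H →L[ℂ] H} (hT : IsSelfAdjoint T)
    (h : ∀ ζ : H, 0 ≤ (⟪ζ, T ζ⟫_ℂ).re) : 0 ≤ T := by
  rw [ContinuousLinearMap.nonneg_iff_isPositive]
  refine ⟨hT.isSymmetric, fun ζ => ?_⟩
  rw [ContinuousLinearMap.reApplyInnerSelf_apply, ← inner_re_symm]
  exact h ζ

theorem inner_nonneg_of_nonneg {T : H →L[ℂ] H} (hT : 0 ≤ T) (ζ : H) : 0 ≤ (⟪ζ, T ζ⟫_ℂ).re := by
  rw [ContinuousLinearMap.nonneg_iff_isPositive] at hT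
  exact hT.re_inner_nonneg_right ζ

theorem inner_ext {S T : H →L[ℂ] H} (h : ∀ ξ η : H, inner ℂ ξ (S η) = inner ℂ ξ (T η)) :
    S = T := by
  ext η
  exact ext_inner_left ℂ fun ξ => h ξ η

/-- weak operator limits of positive operators are positive -/
theorem nonneg_of_tendsto {I : Type*} {l : Filter I} [l.NeBot] {T : I → (H →L[ℂ] H)}
    {L : H →L[ℂ] H} (hT : ∀ᶠ i in l, 0 ≤ T i)
    (hL : ∀ ξ η : H, Tendsto (fun i => inner ℂ ξ (T i η)) l (𝓝 (inner ℂ ξ (L η)))) : 0 ≤ L := by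
  have hsa : IsSelfAdjoint L := by
    refine inner_ext fun ξ η => ?_
    have h1 := (Complex.continuous_conj.tendsto _).comp (hL η ξ)
    rw [inner_conj_symm] at h1
    refine tendsto_nhds_unique ?_ (hL ξ η)
    have h2 : inner ℂ ξ ((star L) η) = inner ℂ (L ξ) η := by
      have := star_apply_inner (star L) ξ η
      rw [star_star] at this
      exact this.symm
    rw [h2]
    refine h1.congr' ?_
    filter_upwards [hT] with i hi
    rw [Function.comp_apply, inner_conj_symm]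
    have h3 := (IsSelfAdjoint.of_nonneg hi).star_eq
    rw [← star_apply_inner, h3]
  refine nonneg_of_inner hsa fun ζ => ?_
  have h4 := (Complex.continuous_re.tendsto _).comp (hL ζ ζ)
  refine ge_of_tendsto h4 ?_
  filter_upwards [hT] with i hi
  exact inner_nonneg_of_nonneg hi ζ

theorem exists_wot_limit {I : Type*} (U : Ultrafilter I) (T : I → (H →L[ℂ] H)) (R : ℝ)
    (hT : ∀ i, ‖T i‖ ≤ R) (hR : 0 ≤ R) :
    ∃ L : H →L[ℂ] H, ‖L‖ ≤ R ∧
      ∀ ξ η : H, Tendsto (fun i => inner ℂ ξ (T i η)) U (𝓝 (inner ℂ ξ (L η))) := by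
  have hbound : ∀ ξ η : H, ∀ i, inner ℂ (T i ξ) η ∈
      Metric.closedBall (0 : ℂ) (R * ‖ξ‖ * ‖η‖) := by
    intro ξ η i
    rw [mem_closedBall_zero_iff]
    refine (norm_inner_le_norm _ _).trans ?_
    gcongr
    exact (T i).le_of_opNorm_le (hT i) ξ
  have hlim : ∀ ξ η : H, ∃ c : ℂ, c ∈ Metric.closedBall (0 : ℂ) (R * ‖ξ‖ * ‖η‖) ∧
      Tendsto (fun i => inner ℂ (T i ξ) η) U (𝓝 c) := by
    intro ξ η
    have hc : IsCompact (Metric.closedBall (0 : ℂ) (R * ‖ξ‖ * ‖η‖)) :=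
      isCompact_closedBall _ _
    obtain ⟨c, hc1, hc2⟩ := hc.ultrafilter_le_nhds (U.map fun i => inner ℂ (T i ξ) η) (by
      rw [le_principal_iff]
      exact Filter.Eventually.of_forall (f := (U : Filter I)) (hbound ξ η))
    exact ⟨c, hc1, hc2⟩
  choose f hf1 hf2 using hlim
  have hadd1 : ∀ a b c, f (a + b) c = f a c + f b c := by
    intro a b c
    refine tendsto_nhds_unique (hf2 _ _) ?_
    refine ((hf2 a c).add (hf2 b c)).congr fun i => ?_
    rw [map_add, inner_add_left]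
  have hadd2 : ∀ a b c, f a (b + c) = f a b + f a c := by
    intro a b c
    refine tendsto_nhds_unique (hf2 _ _) ?_
    refine ((hf2 a b).add (hf2 a c)).congr fun i => ?_
    rw [inner_add_right]
  have hsmul1 : ∀ (r : ℂ) a b, f (r • a) b = (starRingEnd ℂ) r • f a b := by
    intro r a b
    refine tendsto_nhds_unique (hf2 _ _) ?_
    refine ((hf2 a b).const_smul ((starRingEnd ℂ) r)).congr fun i => ?_
    rw [map_smul, inner_smul_left, smul_eq_mul]
  have hsmul2 : ∀ (r : ℂ) a b, f a (r • b) = r • f a b := by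
    intro r a b
    refine tendsto_nhds_unique (hf2 _ _) ?_
    refine ((hf2 a b).const_smul r).congr fun i => ?_
    rw [inner_smul_right, smul_eq_mul]
  let B₀ : H →ₛₗ[starRingEnd ℂ] H →ₗ[ℂ] ℂ :=
    LinearMap.mk₂'ₛₗ (starRingEnd ℂ) (RingHom.id ℂ) f hadd1 hsmul1 hadd2 (by
      intro r a b; exact hsmul2 r a b)
  let B : H →L⋆[ℂ] H →L[ℂ] ℂ := LinearMap.mkContinuous₂ B₀ R (by
    intro a b
    have := hf1 a b
    rwa [mem_closedBall_zero_iff] at this)
  have hB : ∀ a b, B a b = f a b := fun a b => rfl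
  let L := InnerProductSpace.continuousLinearMapOfBilin (𝕜 := ℂ) B
  have hL : ∀ a b, inner ℂ (L a) b = f a b := by
    intro a b
    exact InnerProductSpace.continuousLinearMapOfBilin_apply B a b
  refine ⟨L, ?_, ?_⟩
  · refine ContinuousLinearMap.opNorm_le_bound _ hR fun ζ => ?_
    by_cases hz : L ζ = 0
    · rw [hz, norm_zero]; (clear * - hR; positivity)
    have h1 : ‖L ζ‖ * ‖L ζ‖ ≤ R * ‖ζ‖ * ‖L ζ‖ := by
      have h2 := hf1 ζ (L ζ)
      rw [mem_closedBall_zero_iff, ← hL, inner_self_eq_norm_sq_to_K] at h2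
      have h3 : ‖((‖L ζ‖ : ℂ)) ^ 2‖ = ‖L ζ‖ * ‖L ζ‖ := by
        rw [norm_pow, Complex.norm_real, norm_norm, sq]
      rw [← h3]; exact h2
    exact le_of_mul_le_mul_right h1 (norm_pos_iff.2 hz)
  · intro ξ η
    have h1 : Tendsto (fun i => (starRingEnd ℂ) (inner ℂ (T i η) ξ)) U
        (𝓝 ((starRingEnd ℂ) (inner ℂ (L η) ξ))) := by
      rw [hL]
      exact (Complex.continuous_conj.tendsto _).comp (hf2 η ξ)
    simpa only [inner_conj_symm] using h1

end general

section group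

variable {G : Type} [Group G]

theorem inner_rei {X Y : Type} (e : X ≃ Y) (ξ : Ell2 X) (η : Ell2 Y) :
    ⟪rei e ξ, η⟫_ℂ = ⟪ξ, rei e.symm η⟫_ℂ := by
  rw [lp.inner_eq_tsum, lp.inner_eq_tsum]
  exact (Equiv.tsum_eq e (fun y => ⟪rei e ξ y, η y⟫_ℂ)).symm.trans
    (by simp only [rei_apply, Equiv.symm_apply_apply, Equiv.symm_symm])

theorem star_rei {X : Type} (e : X ≃ X) : star (rei e) = rei e.symm := by
  refine inner_ext fun ξ η => ?_
  have h := star_apply_inner (rei e) η ξ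
  rw [← inner_conj_symm, h, inner_conj_symm, inner_rei]

/-- The right regular representation. -/
noncomputable def rho (g : G) : Ell2 G →L[ℂ] Ell2 G := rei (Equiv.mulRight g⁻¹)

@[simp] theorem rho_apply (g : G) (ξ : Ell2 G) (h : G) : rho g ξ h = ξ (h * g) := by
  simp [rho]

@[simp] theorem dl_apply_self {X : Type} (x : X) : (dl x : Ell2 X) x = 1 := by
  simp [dl]

theorem dl_apply_ne {X : Type} {x y : X} (h : y ≠ x) : (dl x : Ell2 X) y = 0 := by
  classical
  simp [dl, h]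

theorem inner_dl {X : Type} (x : X) (ξ : Ell2 X) : ⟪dl x, ξ⟫_ℂ = ξ x := by
  classical
  simp [dl, lp.inner_single_left]

theorem rei_dl {X Y : Type} (e : X ≃ Y) (x : X) : rei e (dl x) = dl (e x) := by
  ext y
  rw [rei_apply]
  by_cases h : y = e x
  · subst h; simp
  · rw [dl_apply_ne h, dl_apply_ne]
    intro h'
    exact h (by rw [← h', Equiv.apply_symm_apply])

theorem rho_dl (g h : G) : rho g (dl h : Ell2 G) = dl (h * g⁻¹) := by
  rw [rho, rei_dl]; rfl

theorem lam_dl (g h : G) : lam g (dl h : Ell2 G) = dl (g * h) := by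
  rw [lam, rei_dl]; rfl

theorem star_lam (g : G) : star (lam g : Ell2 G →L[ℂ] Ell2 G) = lam g⁻¹ := by
  rw [lam, star_rei]
  ext ξ h
  simp

theorem star_rho (g : G) : star (rho g : Ell2 G →L[ℂ] Ell2 G) = rho g⁻¹ := by
  rw [rho, star_rei]
  ext ξ h
  simp

theorem lam_rho (g h : G) : (lam g * rho h : Ell2 G →L[ℂ] Ell2 G) = rho h * lam g := by
  ext ξ x
  simp [mul_assoc]

theorem mem_LG_rho {T : Ell2 G →L[ℂ] Ell2 G} (hT : T ∈ LG G) (g : G) :
    T * rho g = rho g * T := by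
  rw [LG, vNA, StarSubalgebra.mem_centralizer_iff] at hT
  refine ((hT (rho g) ?_).1).symm
  change rho g ∈ StarSubalgebra.centralizer ℂ _
  rw [StarSubalgebra.mem_centralizer_iff]
  rintro _ ⟨h, rfl⟩
  refine ⟨lam_rho h g, ?_⟩
  rw [star_lam]
  exact lam_rho h⁻¹ g


/-- `LG G` consists of the operators which commute with everything in the commutant. -/
theorem mem_LG_of {T : Ell2 G →L[ℂ] Ell2 G}
    (h : ∀ y ∈ StarSubalgebra.centralizer ℂ (Set.range (lam (G := G))), y * T = T * y) :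
    T ∈ LG G := by
  rw [LG, vNA, StarSubalgebra.mem_centralizer_iff]
  intro y hy
  exact ⟨h y hy, h _ (star_mem hy)⟩

theorem comm_of_mem_LG {T : Ell2 G →L[ℂ] Ell2 G} (hT : T ∈ LG G) {y : Ell2 G →L[ℂ] Ell2 G}
    (hy : y ∈ StarSubalgebra.centralizer ℂ (Set.range (lam (G := G)))) : y * T = T * y := by
  rw [LG, vNA, StarSubalgebra.mem_centralizer_iff] at hT
  exact (hT y hy).1

theorem LG_of_tendsto {I : Type*} {l : Filter I} [l.NeBot] {T : I → (Ell2 G →L[ℂ] Ell2 G)}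
    {L : Ell2 G →L[ℂ] Ell2 G} (hT : ∀ i, T i ∈ LG G)
    (hL : ∀ ξ η : Ell2 G, Tendsto (fun i => inner ℂ ξ (T i η)) l (𝓝 (inner ℂ ξ (L η)))) :
    L ∈ LG G := by
  refine mem_LG_of fun y hy => ?_
  refine inner_ext fun ξ η => ?_
  have h1 : Tendsto (fun i => inner ℂ ξ ((y * T i) η)) l (𝓝 (inner ℂ ξ ((y * L) η))) := by
    have := hL (star y ξ) η
    simp only [star_apply_inner] at this
    exact this
  have h2 : Tendsto (fun i => inner ℂ ξ ((T i * y) η)) l (𝓝 (inner ℂ ξ ((L * y) η))) :=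
    hL ξ (y η)
  refine tendsto_nhds_unique h1 (h2.congr fun i => ?_)
  rw [comm_of_mem_LG (hT i) hy]

/-- The function `x ↦ x (1 + x)⁻¹` of a positive operator. -/
noncomputable def ff {H : Type*} [NormedAddCommGroup H] [InnerProductSpace ℂ H] [CompleteSpace H]
    (x : H →L[ℂ] H) : H →L[ℂ] H := cfcₙ (fun x : NNReal => 1 - (1 + x)⁻¹) x

theorem ff_comm {H : Type*} [NormedAddCommGroup H] [InnerProductSpace ℂ H] [CompleteSpace H]
    {x y : H →L[ℂ] H} (h : y * x = x * y) : y * ff x = ff x * y := by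
  have h : Commute x y := h.symm
  exact (h.cfcₙ_nnreal _).symm.eq

theorem exists_sqrt {H : Type*} [NormedAddCommGroup H] [InnerProductSpace ℂ H] [CompleteSpace H]
    {x : H →L[ℂ] H} (h : 0 ≤ x) :
    ∃ c : H →L[ℂ] H, star c * c = x ∧ ∀ y : H →L[ℂ] H, y * x = x * y → y * c = c * y := by
  refine ⟨CFC.sqrt x, ?_, fun y hy => ?_⟩
  · rw [(IsSelfAdjoint.of_nonneg (CFC.sqrt_nonneg x)).star_eq]
    exact CFC.sqrt_mul_sqrt_self x h
  · have h : Commute x y := hy.symm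
    exact (h.cfcₙ_nnreal _).symm.eq

theorem ff_mem {x : Ell2 G →L[ℂ] Ell2 G} (hx : x ∈ LG G) : ff x ∈ LG G :=
  mem_LG_of fun _ hy => ff_comm (comm_of_mem_LG hx hy)

theorem sqrt_mem {x : Ell2 G →L[ℂ] Ell2 G} (hx : x ∈ LG G) (h : 0 ≤ x) :
    ∃ c ∈ LG G, star c * c = x := by
  obtain ⟨c, hc, hc2⟩ := exists_sqrt h
  exact ⟨c, mem_LG_of fun y hy => hc2 y (comm_of_mem_LG hx hy), hc⟩

end group

section ff

variable {H : Type*} [NormedAddCommGroup H] [InnerProductSpace ℂ H] [CompleteSpace H]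

theorem ff_mono {a b : H →L[ℂ] H} (ha : 0 ≤ a) (h : a ≤ b) : ff a ≤ ff b :=
  CFC.monotoneOn_one_sub_one_add_inv ha (ha.trans h) h

theorem ff_nonneg (a : H →L[ℂ] H) : 0 ≤ ff a := cfcₙ_nonneg_of_predicate

theorem norm_ff (a : H →L[ℂ] H) : ‖ff a‖ ≤ 1 := (norm_cfcₙ_one_sub_one_add_inv_lt_one a).le

theorem ff_le {a : H →L[ℂ] H} (ha : 0 ≤ a) : ff a ≤ a := by
  conv_rhs => rw [← cfcₙ_id NNReal a]
  refine cfcₙ_mono fun x _ => ?_
  rw [id, tsub_le_iff_right]
  have h1 : (0 : NNReal) < 1 + x := by positivity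
  rw [← mul_le_mul_iff_left₀ h1, add_mul, inv_mul_cancel₀ h1.ne', one_mul]
  nlinarith [mul_self_nonneg (x : NNReal)]

theorem le_two_ff {a : H →L[ℂ] H} (ha : 0 ≤ a) (h1 : a ≤ 1) : a ≤ ff a + ff a := by
  have hc : ContinuousOn (fun x : NNReal => 1 - (1 + x)⁻¹) (quasispectrum NNReal a) := by
    fun_prop (disch := intro _ _; positivity)
  have h0 : (fun x : NNReal => 1 - (1 + x)⁻¹) 0 = 0 := by simp
  have h2 : ff a + ff a = cfcₙ (fun x : NNReal => (1 - (1 + x)⁻¹) + (1 - (1 + x)⁻¹)) a :=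
    (cfcₙ_add (a := a) (fun x : NNReal => 1 - (1 + x)⁻¹) (fun x : NNReal => 1 - (1 + x)⁻¹)
      hc h0 hc h0).symm
  rw [h2]
  have hn : ‖a‖₊ ≤ 1 := (CStarAlgebra.nnnorm_le_one_iff_of_nonneg a ha).2 h1
  conv_lhs => rw [← cfcₙ_id NNReal a]
  refine cfcₙ_mono (fun x hx => ?_) continuousOn_id (hc.add hc) rfl (by simp)
  have hx1 : x ≤ 1 := (CStarAlgebra.le_nnnorm_of_mem_quasispectrum hx).trans hn
  have hx2 : (1 : NNReal) - (1 + x)⁻¹ = x * (1 + x)⁻¹ := by
    rw [tsub_eq_iff_eq_add_of_le]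
    · have h1 : (1 + x : NNReal) ≠ 0 := by positivity
      field_simp
      ring
    · exact inv_le_one_of_one_le₀ (by simp)
  rw [hx2, id, ← mul_add, ← two_mul]
  have h3 : (0 : NNReal) < 1 + x := by positivity
  have h4 : 1 ≤ 2 * (1 + x)⁻¹ := by
    rw [← div_eq_mul_inv, one_le_div h3]
    calc 1 + x ≤ 1 + 1 := by gcongr
      _ = 2 := by norm_num
  calc x = x * 1 := (mul_one x).symm
    _ ≤ _ := by gcongr

end ff

end Vale.Agent.P092.H108
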