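import Vale.Agent.P092.H108.Normal

/-!
Every *-isomorphism `L(Γ) → L(Λ)` of group von Neumann algebras, `Γ` with infinite nontrivial
conjugacy classes, preserves the trace.
-/

namespace Vale.Agent.P092.H108
open Vale.Agent.P092.H160
open Filter Topology ContinuousLinearMap
open scoped InnerProductSpace ComplexOrder

section general

variable {H : Type*} [NormedAddCommGroup H] [InnerProductSpace ℂ H] [CompleteSpace H]

/-- A nonempty closed convex set has a point which is fixed by all maps of the set into itself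
which do not increase the norm. -/
theorem exists_min_fixed {K : Set H} (hne : K.Nonempty) (hcl : IsClosed K) (hc : Convex ℝ K) :
    ∃ ζ ∈ K, ∀ W : H → H, (∀ x ∈ K, ‖W x‖ ≤ ‖x‖) → (∀ x ∈ K, W x ∈ K) → W ζ = ζ := by
  obtain ⟨v, hv, hmin⟩ : ∃ v ∈ K, ∀ w ∈ K, ‖v‖ ≤ ‖w‖ := by
    let _ := InnerProductSpace.rclikeToReal ℂ H
    obtain ⟨v, hv, h⟩ := exists_norm_eq_iInf_of_complete_convex hne hcl.isComplete hc (0 : H)
    refine ⟨v, hv, fun w hw => ?_⟩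
    rw [zero_sub, norm_neg] at h
    rw [h]
    have hb : BddBelow (Set.range fun w : K => ‖(0 : H) - w‖) :=
      ⟨0, by rintro _ ⟨w, rfl⟩; exact norm_nonneg _⟩
    refine (ciInf_le hb ⟨w, hw⟩).trans ?_
    rw [zero_sub, norm_neg]
  refine ⟨v, hv, fun W hW hWK => ?_⟩
  obtain ⟨w, hw⟩ : ∃ w, w = W v := ⟨_, rfl⟩
  rw [← hw]
  have hwK : w ∈ K := by rw [hw]; exact hWK v hv
  have hwn : ‖w‖ ≤ ‖v‖ := by rw [hw]; exact hW v hv
  have hm : (1 / 2 : ℝ) • v + (1 / 2 : ℝ) • w ∈ K :=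
    hc hv hwK (by norm_num) (by norm_num) (by norm_num)
  have h1 := hmin _ hm
  rw [← smul_add, norm_smul, Real.norm_of_nonneg (by norm_num : (0 : ℝ) ≤ 1 / 2)] at h1
  have h2 := parallelogram_law_with_norm ℂ v w
  have h3 : ‖v - w‖ * ‖v - w‖ ≤ 0 := by nlinarith [norm_nonneg v, norm_nonneg w, norm_nonneg (v + w)]
  have h4 : ‖v - w‖ = 0 := by nlinarith [norm_nonneg (v - w)]
  rw [norm_eq_zero, sub_eq_zero] at h4
  exact h4.symm

theorem exists_fixed_hull {G V : Type*} [Group G] [AddCommGroup V] [Module ℝ V] (E : V →ₗ[ℝ] H)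
    (cj : G → V →ₗ[ℝ] V) (T' : V) (hcc : ∀ g h x, cj g (cj h x) = cj (g * h) x)
    (W : G → H → H) (hWc : ∀ g, Continuous (W g)) (hWn : ∀ g x, ‖W g x‖ ≤ ‖x‖)
    (hWE : ∀ g, ∀ y ∈ convexHull ℝ (Set.range fun g => cj g T'), W g (E y) = E (cj g y)) :
    ∃ ζ ∈ closure (E '' (convexHull ℝ (Set.range fun g => cj g T'))), ∀ g, W g ζ = ζ := by
  obtain ⟨C, hC⟩ : ∃ C : Set V, C = convexHull ℝ (Set.range fun g => cj g T') := ⟨_, rfl⟩
  rw [← hC] at hWE ⊢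
  have hCne : C.Nonempty := by
    rw [hC, convexHull_nonempty_iff]
    exact Set.range_nonempty _
  have hCc : Convex ℝ C := by rw [hC]; exact convex_convexHull _ _
  have hCinv : ∀ g, ∀ y ∈ C, cj g y ∈ C := by
    intro g y hy
    have h3 : cj g '' C ⊆ C := by
      rw [hC, LinearMap.image_convexHull]
      refine convexHull_mono ?_
      rintro _ ⟨_, ⟨h, rfl⟩, rfl⟩
      exact ⟨g * h, (hcc g h T').symm⟩
    exact h3 ⟨y, hy, rfl⟩
  have hKne : (closure (E '' C)).Nonempty := (hCne.image _).closure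
  have hKc : Convex ℝ (closure (E '' C)) := (hCc.linear_image E).closure
  obtain ⟨ζ, hζ, hfix⟩ := exists_min_fixed hKne isClosed_closure hKc
  refine ⟨ζ, hζ, fun g => hfix (W g) (fun x _ => hWn g x) (fun x hx => ?_)⟩
  have h3 : Set.MapsTo (W g) (E '' C) (E '' C) := by
    rintro _ ⟨y, hy, rfl⟩
    exact ⟨cj g y, hCinv g y hy, (hWE g y hy).symm⟩
  exact h3.closure (hWc g) hx

omit [CompleteSpace H] in
theorem exists_small {V : Type*} [AddCommGroup V] [Module ℝ V] (E : V →ₗ[ℝ] H) {S : Set V}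
    (h : (0 : H) ∈ closure (E '' S)) (n : ℕ) : ∃ y ∈ S, ‖E y‖ ^ 2 ≤ (1 / 4) ^ n := by
  obtain ⟨_, ⟨y, hy, rfl⟩, hd⟩ := Metric.mem_closure_iff.1 h ((1 / 2) ^ n) (by positivity)
  rw [dist_zero_left] at hd
  refine ⟨y, hy, ?_⟩
  calc ‖E y‖ ^ 2 ≤ ((1 / 2) ^ n) ^ 2 := by gcongr
    _ = (1 / 4) ^ n := by rw [← pow_mul, mul_comm, pow_mul]; norm_num

/-- Evaluation at a vector, as a real linear map. -/
noncomputable def evalR (e : H) : (H →L[ℂ] H) →ₗ[ℝ] H where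
  toFun T := T e
  map_add' _ _ := rfl
  map_smul' _ _ := rfl

/-- `x ↦ u x v`, as a real linear map. -/
noncomputable def cjR (u v : H →L[ℂ] H) : (H →L[ℂ] H) →ₗ[ℝ] (H →L[ℂ] H) where
  toFun x := u * x * v
  map_add' x y := by rw [mul_add, add_mul]
  map_smul' c x := by
    ext ξ
    simp

theorem trace_aux {K : Type*} [NormedAddCommGroup K] [InnerProductSpace ℂ K] [CompleteSpace K]
    {M : StarSubalgebra ℂ (H →L[ℂ] H)} {N : StarSubalgebra ℂ (K →L[ℂ] K)}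
    (hM : DC M) (hN : DC N) (θ : M ≃⋆ₐ[ℂ] N) (e : H)
    (he : ∀ T ∈ M, T e = 0 → T = 0) (f : K) (hf : ‖f‖ = 1)
    {G : Type*} [Group G] (U : G → M) (hU : ∀ g, star (U g) * U g = 1)
    (hUU : ∀ g h, U (g * h) = U g * U h)
    (W : G → H → H) (hWc : ∀ g, Continuous (W g)) (hWn : ∀ g x, ‖W g x‖ ≤ ‖x‖)
    (hWE : ∀ g, ∀ y : M, W g ((y : H →L[ℂ] H) e) = ((U g * y * star (U g) : M) : H →L[ℂ] H) e)
    (hW0 : ∀ ζ, (∀ g, W g ζ = ζ) → inner ℂ e ζ = 0 → ζ = 0)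
    (htr : ∀ x y : N, inner ℂ f (((x * y : N) : K →L[ℂ] K) f) =
      inner ℂ f (((y * x : N) : K →L[ℂ] K) f))
    (T : M) (hT1 : ‖(T : H →L[ℂ] H)‖ ≤ 1)
    (hT0 : ∀ g, inner ℂ e (((U g * T * star (U g) : M) : H →L[ℂ] H) e) = 0) :
    inner ℂ f ((θ T : K →L[ℂ] K) f) = 0 := by
  by_contra hne
  obtain ⟨cj, hcj⟩ : ∃ cj : G → (H →L[ℂ] H) →ₗ[ℝ] (H →L[ℂ] H),
      cj = fun g => cjR (U g : H →L[ℂ] H) (star (U g : H →L[ℂ] H)) := ⟨_, rfl⟩
  have hcje : ∀ g (y : M), cj g (y : H →L[ℂ] H) = ((U g * y * star (U g) : M) : H →L[ℂ] H) := by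
    intro g y
    rw [hcj]
    rfl
  have hcc : ∀ g h x, cj g (cj h x) = cj (g * h) x := by
    intro g h x
    rw [hcj]
    change (U g : H →L[ℂ] H) * ((U h : H →L[ℂ] H) * x * star (U h : H →L[ℂ] H)) *
      star (U g : H →L[ℂ] H) = (U (g * h) : H →L[ℂ] H) * x * star (U (g * h) : H →L[ℂ] H)
    rw [hUU]
    change _ = ((U g : H →L[ℂ] H) * (U h : H →L[ℂ] H)) * x *
      star ((U g : H →L[ℂ] H) * (U h : H →L[ℂ] H))
    rw [star_mul]
    simp only [mul_assoc]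
  obtain ⟨C, hC⟩ : ∃ C : Set (H →L[ℂ] H),
    C = convexHull ℝ (Set.range fun g => cj g (T : H →L[ℂ] H)) := ⟨_, rfl⟩
  have hUn : ∀ g, ‖(U g : H →L[ℂ] H)‖ ≤ 1 := by
    intro g
    have h1 : star (U g : H →L[ℂ] H) * (U g : H →L[ℂ] H) = 1 := congrArg Subtype.val (hU g)
    have h2 : ‖(U g : H →L[ℂ] H)‖ * ‖(U g : H →L[ℂ] H)‖ ≤ 1 := by
      rw [← CStarRing.norm_star_mul_self, h1]
      exact ContinuousLinearMap.norm_id_le
    nlinarith [norm_nonneg (U g : H →L[ℂ] H)]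
  -- properties of the elements of the hull
  have hP : ∀ y ∈ C, ∃ hy : y ∈ M, ‖y‖ ≤ 1 ∧ inner ℂ f ((θ ⟨y, hy⟩ : K →L[ℂ] K) f) =
      inner ℂ f ((θ T : K →L[ℂ] K) f) ∧ inner ℂ e (y e) = 0 := by
    have hconv : Convex ℝ {y : H →L[ℂ] H | ∃ hy : y ∈ M, ‖y‖ ≤ 1 ∧
        inner ℂ f ((θ ⟨y, hy⟩ : K →L[ℂ] K) f) =
      inner ℂ f ((θ T : K →L[ℂ] K) f) ∧ inner ℂ e (y e) = 0} := by
      rintro x ⟨hx, hx1, hx2, hx3⟩ y ⟨hy, hy1, hy2, hy3⟩ a b ha hb hab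
      have h3 : a • x + b • y = (a : ℂ) • x + (b : ℂ) • y := by
        simp only [Complex.coe_smul]
      have hmem : a • x + b • y ∈ M := by
        rw [h3]
        exact add_mem (M.smul_mem hx _) (M.smul_mem hy _)
      have hel : (⟨a • x + b • y, hmem⟩ : M) = (a : ℂ) • ⟨x, hx⟩ + (b : ℂ) • ⟨y, hy⟩ := by
        ext1
        exact h3
      refine ⟨hmem, ?_, ?_, ?_⟩
      · calc ‖a • x + b • y‖ ≤ ‖a • x‖ + ‖b • y‖ := norm_add_le _ _
          _ = a * ‖x‖ + b * ‖y‖ := by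
              rw [norm_smul, norm_smul, Real.norm_of_nonneg ha, Real.norm_of_nonneg hb]
          _ ≤ a * 1 + b * 1 := by gcongr
          _ = 1 := by rw [← add_mul, hab, one_mul]
      · rw [hel, map_add, map_smul, map_smul]
        change inner ℂ f ((a : ℂ) • ((θ ⟨x, hx⟩ : K →L[ℂ] K) f) +
          (b : ℂ) • ((θ ⟨y, hy⟩ : K →L[ℂ] K) f)) = _
        rw [inner_add_right, inner_smul_right, inner_smul_right, hx2, hy2, ← add_mul,
          ← Complex.ofReal_add, hab, Complex.ofReal_one, one_mul]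
      · rw [h3]
        change inner ℂ e ((a : ℂ) • (x e) + (b : ℂ) • (y e)) = _
        rw [inner_add_right, inner_smul_right, inner_smul_right, hx3, hy3, mul_zero, mul_zero,
          add_zero]
    intro y hy
    rw [hC] at hy
    refine convexHull_min ?_ hconv hy
    rintro _ ⟨g, rfl⟩
    have hmem : cj g (T : H →L[ℂ] H) ∈ M := by rw [hcje]; exact SetLike.coe_mem _
    have hel : (⟨cj g (T : H →L[ℂ] H), hmem⟩ : M) = U g * T * star (U g) :=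
      Subtype.ext (hcje g T)
    refine ⟨hmem, ?_, ?_, ?_⟩
    · rw [hcj]
      change ‖(U g : H →L[ℂ] H) * (T : H →L[ℂ] H) * star (U g : H →L[ℂ] H)‖ ≤ 1
      calc _ ≤ ‖(U g : H →L[ℂ] H) * (T : H →L[ℂ] H)‖ * ‖star (U g : H →L[ℂ] H)‖ := norm_mul_le _ _
        _ ≤ (‖(U g : H →L[ℂ] H)‖ * ‖(T : H →L[ℂ] H)‖) * ‖star (U g : H →L[ℂ] H)‖ := by
            gcongr
            exact norm_mul_le _ _
        _ ≤ (1 * 1) * 1 := by
            rw [norm_star]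
            gcongr
            · exact hUn g
            · exact hUn g
        _ = 1 := by norm_num
    · rw [hel, map_mul, htr, map_mul, ← mul_assoc, ← map_mul, hU, map_one, one_mul]
    · have h5 := hT0 g
      rw [← hcje] at h5
      exact h5
  have hWE' : ∀ g, ∀ y ∈ C, W g (evalR e y) = evalR e (cj g y) := by
    intro g y hy
    obtain ⟨hy, -⟩ := hP y hy
    have h1 := hWE g ⟨y, hy⟩
    have h2 := hcje g ⟨y, hy⟩
    change W g (y e) = (cj g y) e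
    rw [h1]
    exact (DFunLike.congr_fun h2 e).symm
  rw [hC] at hWE'
  obtain ⟨ζ, hζ, hfix⟩ := exists_fixed_hull (evalR e) cj (T : H →L[ℂ] H) hcc W hWc hWn hWE'
  rw [← hC] at hζ
  have hζ0 : ζ = 0 := by
    refine hW0 ζ hfix ?_
    have hcl : IsClosed {ξ : H | inner ℂ e ξ = 0} := isClosed_eq (by fun_prop) continuous_const
    refine closure_minimal ?_ hcl hζ
    rintro _ ⟨y, hy, rfl⟩
    exact (hP y hy).choose_spec.2.2
  rw [hζ0] at hζ
  have hy : ∀ n : ℕ, ∃ y : M, (y : H →L[ℂ] H) ∈ C ∧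
      ‖(y : H →L[ℂ] H) e‖ ^ 2 ≤ (1 / 4) ^ n := by
    intro n
    obtain ⟨y, hy, hyn⟩ := exists_small (evalR e) hζ n
    exact ⟨⟨y, (hP y hy).choose⟩, hy, hyn⟩
  choose y hyC hyn using hy
  have hpos : 0 < ‖inner ℂ f ((θ T : K →L[ℂ] K) f)‖ ^ 2 := by
    have : 0 < ‖inner ℂ f ((θ T : K →L[ℂ] K) f)‖ := norm_pos_iff.2 hne
    positivity
  refine normal_key hM hN θ e he f y
    (fun n => (hP _ (hyC n)).choose_spec.1) hyn _ hpos fun n => ?_
  obtain ⟨hy1, -, hy2, -⟩ := hP _ (hyC n)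
  have h3 : inner ℂ f ((θ (star (y n) * y n) : K →L[ℂ] K) f) =
      ((‖(θ (y n) : K →L[ℂ] K) f‖ ^ 2 : ℝ) : ℂ) := by
    rw [map_mul, map_star]
    change inner ℂ f ((star (θ (y n) : K →L[ℂ] K)) ((θ (y n) : K →L[ℂ] K) f)) = _
    rw [← star_apply_inner, star_star, inner_self_eq_norm_sq_to_K]
    norm_cast
  rw [h3, Complex.ofReal_re, ← hy2]
  have h4 : ‖inner ℂ f ((θ (y n) : K →L[ℂ] K) f)‖ ≤ ‖(θ (y n) : K →L[ℂ] K) f‖ := by
    refine (norm_inner_le_norm _ _).trans ?_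
    rw [hf, one_mul]
  gcongr

end general

section group

set_option linter.unusedSectionVars false

variable {G : Type} [Group G]

theorem apply_dl {T : Ell2 G →L[ℂ] Ell2 G} (hT : T ∈ LG G) (g : G) :
    T (dl g) = rho g⁻¹ (T (dl 1)) := by
  have h := mem_LG_rho hT g⁻¹
  have h2 := DFunLike.congr_fun h (dl 1)
  simp only [mul_apply_eq_comp] at h2
  rw [← h2, rho_dl, one_mul, inv_inv]

theorem ext_dl {S T : Ell2 G →L[ℂ] Ell2 G} (h : ∀ g, S (dl g) = T (dl g)) : S = T := by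
  classical
  refine lp.ext_continuousLinearMap (by norm_num) fun g => ?_
  refine ContinuousLinearMap.ext_ring ?_
  have := h g
  simp only [dl] at this
  exact this

theorem eq_zero_of_dl {T : Ell2 G →L[ℂ] Ell2 G} (hT : T ∈ LG G) (h : T (dl 1) = 0) : T = 0 := by
  refine ext_dl fun g => ?_
  rw [apply_dl hT, h, map_zero, zero_apply]

theorem dc_LG : DC (LG G) := ⟨_, rfl⟩

theorem star_apply_dl {x : Ell2 G →L[ℂ] Ell2 G} (hx : x ∈ LG G) (g : G) :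
    (star x (dl 1) : Ell2 G) g = (starRingEnd ℂ) ((x (dl 1) : Ell2 G) g⁻¹) := by
  have h1 : (star x (dl 1) : Ell2 G) g = ⟪x (dl g), dl 1⟫_ℂ := by
    rw [← inner_dl, ← star_apply_inner, star_star]
  rw [h1, apply_dl hx, ← inner_conj_symm, inner_dl, rho_apply, one_mul]

theorem tr_mul (x y : LG G) : tr (x * y) =
    ∑' g : G, (((x : Ell2 G →L[ℂ] Ell2 G) (dl 1) : Ell2 G) g⁻¹) *
      (((y : Ell2 G →L[ℂ] Ell2 G) (dl 1) : Ell2 G) g) := by
  have h : tr (x * y) = ⟪(dl 1 : Ell2 G), (x : Ell2 G →L[ℂ] Ell2 G)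
      ((y : Ell2 G →L[ℂ] Ell2 G) (dl 1))⟫_ℂ := rfl
  rw [h, ← star_apply_inner, lp.inner_eq_tsum]
  refine tsum_congr fun g => ?_
  rw [star_apply_dl x.2, RCLike.inner_apply, starRingEnd_self_apply, mul_comm]

theorem tr_comm (x y : LG G) : tr (x * y) = tr (y * x) := by
  rw [tr_mul, tr_mul, ← Equiv.tsum_eq (Equiv.inv G)]
  refine tsum_congr fun g => ?_
  rw [Equiv.inv_apply, inv_inv, mul_comm]

theorem tr_add (x y : LG G) : tr (x + y) = tr x + tr y := by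
  simp only [tr]
  rw [← inner_add_right]
  rfl

theorem tr_smul (c : ℂ) (x : LG G) : tr (c • x) = c * tr x := by
  simp only [tr]
  rw [← smul_eq_mul, ← inner_smul_right_eq_smul]
  rfl

theorem tr_one : tr (1 : LG G) = 1 := by
  have h : tr (1 : LG G) = ⟪(dl 1 : Ell2 G), dl 1⟫_ℂ := rfl
  rw [h, inner_dl, dl_apply_self]

theorem norm_dl (g : G) : ‖(dl g : Ell2 G)‖ = 1 := by
  classical
  rw [dl, lp.norm_single (by norm_num), norm_one]

theorem star_uu_mul (g : G) : star (uu g) * uu g = 1 := by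
  ext1
  change star (lam g : Ell2 G →L[ℂ] Ell2 G) * lam g = 1
  rw [star_lam]
  ext ξ h
  simp

theorem norm_rei {X Y : Type} (e : X ≃ Y) (ξ : Ell2 X) : ‖rei e ξ‖ = ‖ξ‖ := by
  have h : ‖rei e ξ‖ ^ 2 = ‖ξ‖ ^ 2 := by
    have h1 : ((‖rei e ξ‖ ^ 2 : ℝ) : ℂ) = ((‖ξ‖ ^ 2 : ℝ) : ℂ) := by
      have h2 := inner_rei e ξ (rei e ξ)
      have h3 : rei e.symm (rei e ξ) = ξ := by
        ext x
        simp
      rw [h3, inner_self_eq_norm_sq_to_K, inner_self_eq_norm_sq_to_K] at h2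
      exact_mod_cast h2
    exact_mod_cast h1
  exact (pow_left_inj₀ (norm_nonneg _) (norm_nonneg _) two_ne_zero).1 h

theorem norm_lam_mul_le (g : G) (T : Ell2 G →L[ℂ] Ell2 G) :
    ‖lam g * T * lam g⁻¹‖ ≤ ‖T‖ := by
  refine ContinuousLinearMap.opNorm_le_bound _ (norm_nonneg _) fun ξ => ?_
  change ‖rei (Equiv.mulLeft g) (T (rei (Equiv.mulLeft g⁻¹) ξ))‖ ≤ _
  rw [norm_rei]
  refine (T.le_opNorm _).trans ?_
  rw [norm_rei]

theorem eq_zero_of_infinite (ξ : Ell2 G) (c : ℂ) (S : Set G) (hS : S.Infinite)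
    (h : ∀ g ∈ S, ξ g = c) : c = 0 := by
  by_contra hc
  have h1 : Summable fun g => ‖ξ g‖ ^ (2 : ℝ) := by
    have := lp.memℓp ξ
    rw [memℓp_gen_iff (by norm_num)] at this
    simpa using this
  have h2 := h1.tendsto_cofinite_zero
  have h3 : ∀ᶠ g in cofinite, ‖ξ g‖ ^ (2 : ℝ) < ‖c‖ ^ (2 : ℝ) := by
    refine (h2.eventually (gt_mem_nhds ?_))
    have : 0 < ‖c‖ := norm_pos_iff.2 hc
    positivity
  rw [eventually_cofinite] at h3
  refine hS (h3.subset fun g hg => ?_)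
  simp only [Set.mem_ofPred_eq, h g hg, lt_self_iff_false, not_false_eq_true]

theorem conj_fixed {ζ : Ell2 G} (hfix : ∀ g, lam g (rho g ζ) = ζ) (h x : G) :
    ζ (h * x * h⁻¹) = ζ x := by
  have h3 : (lam h⁻¹ (rho h⁻¹ ζ) : Ell2 G) x = ζ x := by rw [hfix]
  rw [lam_apply, rho_apply, inv_inv] at h3
  exact h3

theorem fixed_eq_zero (hG : ∀ g : G, g ≠ 1 → Set.Infinite {y : G | ∃ h, y = h * g * h⁻¹})
    {ζ : Ell2 G} (hfix : ∀ g, lam g (rho g ζ) = ζ) (h1 : ζ 1 = 0) : ζ = 0 := by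
  ext x
  by_cases hx : x = 1
  · rw [hx, h1]; rfl
  · refine eq_zero_of_infinite ζ (ζ x) _ (hG x hx) ?_
    rintro _ ⟨h, rfl⟩
    exact conj_fixed hfix h x

end group

section final

variable {Γ Λ : Type} [Group Γ] [Group Λ]

theorem tr_iso_aux (hΓ : ∀ g : Γ, g ≠ 1 → Set.Infinite {y : Γ | ∃ h, y = h * g * h⁻¹})
    (θ : LG Γ ≃⋆ₐ[ℂ] LG Λ) (T : LG Γ) (h1 : ‖(T : Ell2 Γ →L[ℂ] Ell2 Γ)‖ ≤ 1) (h0 : tr T = 0) :
    tr (θ T) = 0 := by
  refine trace_aux dc_LG dc_LG θ (dl 1) (fun T hT h => eq_zero_of_dl hT h) (dl 1) (norm_dl 1)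
    (G := Γ) uu star_uu_mul (fun g h => ?_) (fun g x => lam g (rho g x))
    (fun g => (lam g).continuous.comp (rho g).continuous)
    (fun g x => le_of_eq ((norm_rei _ _).trans (norm_rei _ _))) (fun g y => ?_)
    (fun ζ hζ hζ1 => fixed_eq_zero hΓ hζ ((inner_dl 1 ζ).symm.trans hζ1))
    (fun x y => tr_comm x y) T h1 (fun g => ?_)
  · ext1
    change lam (g * h) = lam g * lam h
    ext ξ x
    simp [mul_assoc]
  · change lam g (rho g ((y : Ell2 Γ →L[ℂ] Ell2 Γ) (dl 1))) =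
      lam g ((y : Ell2 Γ →L[ℂ] Ell2 Γ) ((star (lam g) : Ell2 Γ →L[ℂ] Ell2 Γ) (dl 1)))
    have h3 : (y : Ell2 Γ →L[ℂ] Ell2 Γ) (rho g (dl 1)) =
      rho g ((y : Ell2 Γ →L[ℂ] Ell2 Γ) (dl 1)) := DFunLike.congr_fun (mem_LG_rho y.2 g) _
    rw [star_lam, ← h3, rho_dl, lam_dl, one_mul, mul_one]
  · change tr (uu g * T * star (uu g)) = 0
    rw [tr_comm, ← mul_assoc, star_uu_mul, one_mul, h0]

theorem tr_iso (hΓ : ∀ g : Γ, g ≠ 1 → Set.Infinite {y : Γ | ∃ h, y = h * g * h⁻¹})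
    (θ : LG Γ ≃⋆ₐ[ℂ] LG Λ) (T : LG Γ) : tr (θ T) = tr T := by
  obtain ⟨S, hS⟩ : ∃ S : LG Γ, S = T - tr T • 1 := ⟨_, rfl⟩
  have hS0 : tr S = 0 := by
    rw [hS, sub_eq_add_neg, ← neg_one_smul ℂ (tr T • (1 : LG Γ)), tr_add, tr_smul, tr_smul, tr_one]
    ring
  obtain ⟨c, hc⟩ : ∃ c : ℝ, c = (‖(S : Ell2 Γ →L[ℂ] Ell2 Γ)‖ + 1)⁻¹ := ⟨_, rfl⟩
  have hn : 0 < ‖(S : Ell2 Γ →L[ℂ] Ell2 Γ)‖ + 1 := by positivity
  have hc0 : 0 < c := by rw [hc]; positivity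
  have h1 := tr_iso_aux hΓ θ ((c : ℂ) • S) (by
    change ‖(c : ℂ) • (S : Ell2 Γ →L[ℂ] Ell2 Γ)‖ ≤ 1
    rw [norm_smul, Complex.norm_real, Real.norm_of_nonneg hc0.le, hc, inv_mul_le_iff₀ hn]
    linarith) (by rw [tr_smul, hS0, mul_zero])
  rw [map_smul, tr_smul, mul_eq_zero] at h1
  have h2 : tr (θ S) = 0 := by
    rcases h1 with h1 | h1
    · exact absurd (Complex.ofReal_eq_zero.1 h1) hc0.ne'
    · exact h1
  have h3 : T = S + tr T • 1 := by rw [hS]; abel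
  conv_lhs => rw [h3]
  rw [map_add, map_smul, map_one, tr_add, tr_smul, tr_one, h2]
  ring

end final

end Vale.Agent.P092.H108
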