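import Vale.Agent.P092.H108.Base

/-!
Normality of *-isomorphisms of concrete von Neumann algebras (finite case), in the form needed for traces.
-/

namespace Vale.Agent.P092.H108
open Filter Topology ContinuousLinearMap
open scoped InnerProductSpace ComplexOrder

section general

variable {H : Type*} [NormedAddCommGroup H] [InnerProductSpace ℂ H] [CompleteSpace H]

theorem mono_limit {T : ℕ → (H →L[ℂ] H)} (hT : ∀ i, ‖T i‖ ≤ 1) (hm : Monotone T) :
    ∃ (L : H →L[ℂ] H) (U : Ultrafilter ℕ), ‖L‖ ≤ 1 ∧ (∀ i, T i ≤ L) ∧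
      (∀ S, (∀ i, T i ≤ S) → L ≤ S) ∧
      ∀ ξ η : H, Tendsto (fun i => inner ℂ ξ (T i η)) U (𝓝 (inner ℂ ξ (L η))) := by
  obtain ⟨L, hL1, hL2⟩ := exists_wot_limit (Ultrafilter.of (atTop : Filter ℕ)) T 1 hT zero_le_one
  refine ⟨L, _, hL1, fun i => ?_, fun S hS => ?_, hL2⟩
  · rw [← sub_nonneg]
    refine nonneg_of_tendsto (l := (Ultrafilter.of (atTop : Filter ℕ) : Filter ℕ))
      (T := fun j => T j - T i) ?_ ?_
    · refine (Ultrafilter.of_le (atTop : Filter ℕ)) ?_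
      filter_upwards [eventually_ge_atTop i] with j hj
      exact sub_nonneg.2 (hm hj)
    · intro ξ η
      simp only [sub_apply, inner_sub_right]
      exact (hL2 ξ η).sub tendsto_const_nhds
  · rw [← sub_nonneg]
    refine nonneg_of_tendsto (l := (Ultrafilter.of (atTop : Filter ℕ) : Filter ℕ))
      (T := fun j => S - T j) ?_ ?_
    · exact Eventually.of_forall fun j => sub_nonneg.2 (hS j)
    · intro ξ η
      simp only [sub_apply, inner_sub_right]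
      exact tendsto_const_nhds.sub (hL2 ξ η)

theorem anti_limit {T : ℕ → (H →L[ℂ] H)} (hT : ∀ i, ‖T i‖ ≤ 1) (hm : Antitone T) :
    ∃ (L : H →L[ℂ] H) (U : Ultrafilter ℕ), ‖L‖ ≤ 1 ∧ (∀ i, L ≤ T i) ∧
      (∀ S, (∀ i, S ≤ T i) → S ≤ L) ∧
      ∀ ξ η : H, Tendsto (fun i => inner ℂ ξ (T i η)) U (𝓝 (inner ℂ ξ (L η))) := by
  obtain ⟨L, U, h1, h2, h3, h4⟩ := mono_limit (T := fun i => - T i)
    (fun i => by rw [norm_neg]; exact hT i) (fun i j hij => neg_le_neg (hm hij))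
  refine ⟨-L, U, by rwa [norm_neg], fun i => neg_le.1 (h2 i), fun S hS => ?_, fun ξ η => ?_⟩
  · exact le_neg.1 (h3 (-S) fun i => neg_le_neg (hS i))
  · have := (h4 ξ η).neg
    simpa only [neg_apply, inner_neg_right, neg_neg] using this

theorem le_one_of {T : H →L[ℂ] H} (h0 : 0 ≤ T) (h : ‖T‖ ≤ 1) : T ≤ 1 :=
  (CStarAlgebra.norm_le_one_iff_of_nonneg T h0).1 h

theorem norm_le_of {T : H →L[ℂ] H} (h0 : 0 ≤ T) (h : T ≤ 1) : ‖T‖ ≤ 1 :=
  (CStarAlgebra.norm_le_one_iff_of_nonneg T h0).2 h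

theorem inner_le_of_le {S T : H →L[ℂ] H} (hT : S ≤ T) (ζ : H) :
    (inner ℂ ζ (S ζ)).re ≤ (inner ℂ ζ (T ζ)).re := by
  have := inner_nonneg_of_nonneg (sub_nonneg.2 hT) ζ
  rw [sub_apply, inner_sub_right, Complex.sub_re] at this
  linarith only [this]

/-- `M` is the double commutant of some set. -/
def DC (M : StarSubalgebra ℂ (H →L[ℂ] H)) : Prop :=
  ∃ S : Set (H →L[ℂ] H), M = StarSubalgebra.centralizer ℂ
    (StarSubalgebra.centralizer ℂ S : Set (H →L[ℂ] H))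

variable {M : StarSubalgebra ℂ (H →L[ℂ] H)}

theorem DC.mem_of_tendsto (hM : DC M) {I : Type*} {l : Filter I} [l.NeBot]
    {T : I → (H →L[ℂ] H)} {L : H →L[ℂ] H} (hT : ∀ i, T i ∈ M)
    (hL : ∀ ξ η : H, Tendsto (fun i => inner ℂ ξ (T i η)) l (𝓝 (inner ℂ ξ (L η)))) :
    L ∈ M := by
  obtain ⟨S, rfl⟩ := hM
  simp only [StarSubalgebra.mem_centralizer_iff] at hT ⊢
  have key : ∀ y ∈ (StarSubalgebra.centralizer ℂ S : Set (H →L[ℂ] H)), y * L = L * y := by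
    intro y hy
    refine inner_ext fun ξ η => ?_
    have h1 : Tendsto (fun i => inner ℂ ξ ((y * T i) η)) l (𝓝 (inner ℂ ξ ((y * L) η))) := by
      have := hL (star y ξ) η
      simp only [star_apply_inner] at this
      exact this
    have h2 : Tendsto (fun i => inner ℂ ξ ((T i * y) η)) l (𝓝 (inner ℂ ξ ((L * y) η))) :=
      hL ξ (y η)
    refine tendsto_nhds_unique h1 (h2.congr fun i => ?_)
    rw [(hT i y hy).1]
  intro y hy
  exact ⟨key y hy, key _ (star_mem (S := StarSubalgebra ℂ (H →L[ℂ] H)) hy)⟩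

theorem DC.mem_of_comm (hM : DC M) {x z : H →L[ℂ] H} (hx : x ∈ M)
    (h : ∀ y : H →L[ℂ] H, y * x = x * y → y * z = z * y) : z ∈ M := by
  obtain ⟨S, rfl⟩ := hM
  simp only [StarSubalgebra.mem_centralizer_iff] at hx ⊢
  intro y hy
  exact ⟨h y (hx y hy).1, h _ (hx _ (star_mem (S := StarSubalgebra ℂ (H →L[ℂ] H)) hy)).1⟩

theorem DC.ff_mem (hM : DC M) {x : H →L[ℂ] H} (hx : x ∈ M) : ff x ∈ M :=
  hM.mem_of_comm hx fun _ hy => ff_comm hy

theorem DC.sqrt_mem (hM : DC M) {x : H →L[ℂ] H} (hx : x ∈ M) (h : 0 ≤ x) :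
    ∃ c ∈ M, star c * c = x := by
  obtain ⟨c, hc, hc2⟩ := exists_sqrt h
  exact ⟨c, hM.mem_of_comm hx hc2, hc⟩

end general

section iso

variable {H K : Type*} [NormedAddCommGroup H] [InnerProductSpace ℂ H] [CompleteSpace H]
  [NormedAddCommGroup K] [InnerProductSpace ℂ K] [CompleteSpace K]
variable {M : StarSubalgebra ℂ (H →L[ℂ] H)} {N : StarSubalgebra ℂ (K →L[ℂ] K)}

theorem map_nonneg' (hM : DC M) (θ : M ≃⋆ₐ[ℂ] N) {x : M} (hx : 0 ≤ (x : H →L[ℂ] H)) :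
    0 ≤ (θ x : K →L[ℂ] K) := by
  obtain ⟨c, hc, hcx⟩ := hM.sqrt_mem x.2 hx
  have h1 : x = star (⟨c, hc⟩ : M) * ⟨c, hc⟩ := Subtype.ext hcx.symm
  rw [h1, map_mul, map_star]
  exact star_mul_self_nonneg (θ ⟨c, hc⟩ : K →L[ℂ] K)

theorem map_mono' (hM : DC M) (θ : M ≃⋆ₐ[ℂ] N) {x y : M} (h : (x : H →L[ℂ] H) ≤ y) :
    (θ x : K →L[ℂ] K) ≤ θ y := by
  have h1 : 0 ≤ ((y - x : M) : H →L[ℂ] H) := by
    exact sub_nonneg.2 h
  have h2 := map_nonneg' hM θ h1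
  rw [map_sub] at h2
  exact sub_nonneg.1 h2

theorem normal_key (hM : DC M) (hN : DC N) (θ : M ≃⋆ₐ[ℂ] N) (e : H)
    (he : ∀ T ∈ M, T e = 0 → T = 0) (f : K)
    (y : ℕ → M) (h1 : ∀ n, ‖(y n : H →L[ℂ] H)‖ ≤ 1)
    (h2 : ∀ n, ‖(y n : H →L[ℂ] H) e‖ ^ 2 ≤ (1 / 4) ^ n) (c : ℝ) (hc : 0 < c)
    (h3 : ∀ n, c ≤ (inner ℂ f ((θ (star (y n) * y n) : K →L[ℂ] K) f)).re) : False := by
  obtain ⟨a, ha⟩ : ∃ a : ℕ → M, a = fun n => star (y n) * y n := ⟨_, rfl⟩
  have ha0 : ∀ n, 0 ≤ (a n : H →L[ℂ] H) := by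
    intro n
    rw [ha]
    exact star_mul_self_nonneg (y n : H →L[ℂ] H)
  have ha1 : ∀ n, (a n : H →L[ℂ] H) ≤ 1 := by
    intro n
    refine le_one_of (ha0 n) ?_
    rw [ha]
    change ‖star (y n : H →L[ℂ] H) * (y n : H →L[ℂ] H)‖ ≤ 1
    rw [CStarRing.norm_star_mul_self]
    exact mul_le_one₀ (h1 n) (norm_nonneg _) (h1 n)
  have hat : ∀ n, (inner ℂ e ((a n : H →L[ℂ] H) e)).re ≤ (1 / 4) ^ n := by
    intro n
    have h5 : inner ℂ e ((a n : H →L[ℂ] H) e) = ((‖(y n : H →L[ℂ] H) e‖ ^ 2 : ℝ) : ℂ) := by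
      rw [ha]
      change inner ℂ e ((star (y n : H →L[ℂ] H)) ((y n : H →L[ℂ] H) e)) = _
      rw [← star_apply_inner, star_star, inner_self_eq_norm_sq_to_K]
      norm_cast
    rw [h5, Complex.ofReal_re]
    exact h2 n
  obtain ⟨b, hb⟩ : ∃ b : ℕ → ℕ → M, b = fun N K => ∑ k ∈ Finset.range K, a (N + k) := ⟨_, rfl⟩
  have hbc : ∀ N K, (b N K : H →L[ℂ] H) = ∑ k ∈ Finset.range K, (a (N + k) : H →L[ℂ] H) := by
    intro N K
    rw [hb]
    simp only [AddSubmonoidClass.coe_finsetSum]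
  have hb0 : ∀ N K, 0 ≤ (b N K : H →L[ℂ] H) := by
    intro N K
    rw [hbc]
    exact Finset.sum_nonneg fun k _ => ha0 _
  have hbm : ∀ N K, (b N K : H →L[ℂ] H) ≤ b N (K + 1) := by
    intro N K
    rw [hbc, hbc, Finset.sum_range_succ]
    exact le_add_of_nonneg_right (ha0 _)
  have hbs : ∀ N K, (b (N + 1) K : H →L[ℂ] H) ≤ b N (K + 1) := by
    intro N K
    rw [hbc, hbc, Finset.sum_range_succ', add_zero]
    have h : ∀ k, N + 1 + k = N + (k + 1) := fun k => by ring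
    simp only [h]
    exact le_add_of_nonneg_right (ha0 _)
  have hbt : ∀ N K, (inner ℂ e ((b N K : H →L[ℂ] H) e)).re ≤ 2 * (1 / 4) ^ N := by
    intro N K
    rw [hbc, sum_apply, inner_sum, Complex.re_sum]
    calc ∑ k ∈ Finset.range K, (inner ℂ e ((a (N + k) : H →L[ℂ] H) e)).re
        ≤ ∑ k ∈ Finset.range K, (1 / 4 : ℝ) ^ N * (1 / 4) ^ k := by
          refine Finset.sum_le_sum fun k _ => ?_
          rw [← pow_add]
          exact hat _
      _ = (1 / 4 : ℝ) ^ N * ∑ k ∈ Finset.range K, (1 / 4 : ℝ) ^ k := by rw [Finset.mul_sum]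
      _ ≤ (1 / 4 : ℝ) ^ N * 2 := by
          gcongr
          have := Summable.sum_le_tsum (Finset.range K) (fun k _ => by positivity)
            (summable_geometric_of_lt_one (by norm_num : (0 : ℝ) ≤ 1 / 4) (by norm_num))
          rw [tsum_geometric_of_lt_one (by norm_num) (by norm_num)] at this
          norm_num at this ⊢
          linarith
      _ = _ := by ring
  -- the suprema
  have hs : ∀ N, ∃ s : M, ‖(s : H →L[ℂ] H)‖ ≤ 1 ∧
      (∀ K, ff (b N K : H →L[ℂ] H) ≤ s) ∧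
      (∀ S : H →L[ℂ] H, (∀ K, ff (b N K : H →L[ℂ] H) ≤ S) → s ≤ S) ∧
      (inner ℂ e ((s : H →L[ℂ] H) e)).re ≤ 2 * (1 / 4) ^ N := by
    intro N
    obtain ⟨L, U, h1, h2, h3, h4⟩ := mono_limit
      (T := fun K => ff (b N K : H →L[ℂ] H)) (fun K => norm_ff _)
      (monotone_nat_of_le_succ fun K => ff_mono (hb0 _ _) (hbm _ _))
    refine ⟨⟨L, hM.mem_of_tendsto (fun K => hM.ff_mem (b N K).2) h4⟩, h1, h2, h3, ?_⟩
    refine le_of_tendsto ((Complex.continuous_re.tendsto _).comp (h4 e e)) ?_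
    refine Eventually.of_forall fun K => ?_
    exact (inner_le_of_le (ff_le (hb0 N K)) _).trans (hbt N K)
  choose s hs1 hs2 hs3 hs4 using hs
  have hs0 : ∀ N, 0 ≤ (s N : H →L[ℂ] H) := fun N => (ff_nonneg _).trans (hs2 N 0)
  have hsm : ∀ N, (s (N + 1) : H →L[ℂ] H) ≤ s N := by
    intro N
    refine hs3 _ _ fun K => ?_
    exact (ff_mono (hb0 _ _) (hbs _ _)).trans (hs2 N (K + 1))
  obtain ⟨L, U, hL1, hL2, hL3, hL4⟩ := anti_limit hs1 (antitone_nat_of_succ_le hsm)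
  have hLm : L ∈ M := hM.mem_of_tendsto (fun K => (s K).2) hL4
  have hL0 : 0 ≤ L := hL3 0 hs0
  have hLz : L = 0 := by
    obtain ⟨c, hc, hcL⟩ := hM.sqrt_mem hLm hL0
    have h5 : ∀ N : ℕ, (inner ℂ e (L e)).re ≤ 2 * (1 / 4) ^ N := fun N =>
      (inner_le_of_le (hL2 N) _).trans (hs4 N)
    have h6 : Tendsto (fun N : ℕ => 2 * (1 / 4 : ℝ) ^ N) atTop (𝓝 (2 * 0)) :=
      (tendsto_pow_atTop_nhds_zero_of_lt_one (by norm_num) (by norm_num)).const_mul _
    rw [mul_zero] at h6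
    have h7 := ge_of_tendsto' h6 h5
    have h8 : inner ℂ e (L e) = ((‖c e‖ ^ 2 : ℝ) : ℂ) := by
      rw [← hcL]
      change inner ℂ e ((star c) (c e)) = _
      rw [← star_apply_inner, star_star, inner_self_eq_norm_sq_to_K]
      norm_cast
    rw [h8, Complex.ofReal_re] at h7
    have h9 : c e = 0 := by
      rw [← norm_eq_zero]
      exact pow_eq_zero_iff (two_ne_zero) |>.1 (le_antisymm h7 (sq_nonneg _))
    rw [← hcL, he c hc h9, mul_zero]
  -- the other side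
  have ht0 : ∀ N, 0 ≤ (θ (s N) : K →L[ℂ] K) := fun N => map_nonneg' hM θ (hs0 N)
  have ht1 : ∀ N, ‖(θ (s N) : K →L[ℂ] K)‖ ≤ 1 := by
    intro N
    refine norm_le_of (ht0 N) ?_
    have h5 : (s N : H →L[ℂ] H) ≤ (1 : M) := le_one_of (hs0 N) (hs1 N)
    have h6 := map_mono' hM θ h5
    rw [map_one] at h6
    exact h6
  obtain ⟨R, V, hM1, hM2, hM3, hM4⟩ := anti_limit ht1
    (antitone_nat_of_succ_le fun N => map_mono' hM θ (hsm N))
  have hMm : R ∈ N := hN.mem_of_tendsto (fun K => (θ (s K)).2) hM4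
  have hM0 : 0 ≤ R := hM3 0 ht0
  have hMz : (⟨R, hMm⟩ : N) = 0 := by
    have h5 : ∀ N, (θ.symm ⟨R, hMm⟩ : H →L[ℂ] H) ≤ s N := by
      intro N
      have h6 := map_mono' hN θ.symm (x := ⟨R, hMm⟩) (y := θ (s N)) (hM2 N)
      rwa [StarAlgEquiv.symm_apply_apply] at h6
    have h6 := hL3 _ h5
    rw [hLz] at h6
    have h7 : 0 ≤ (θ.symm ⟨R, hMm⟩ : H →L[ℂ] H) :=
      map_nonneg' hN θ.symm (x := ⟨R, hMm⟩) hM0
    have h8 : θ.symm ⟨R, hMm⟩ = 0 := Subtype.ext (le_antisymm h6 h7)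
    have h9 := congrArg θ h8
    rwa [StarAlgEquiv.apply_symm_apply, map_zero] at h9
  have hMz' : R = 0 := congrArg Subtype.val hMz
  have h5 : ∀ N, c / 2 ≤ (inner ℂ f ((θ (s N) : K →L[ℂ] K) f)).re := by
    intro N
    have h6 : (a N : H →L[ℂ] H) ≤ (s N + s N : M) := by
      have h7 : ff (a N : H →L[ℂ] H) ≤ s N := by
        have h8 := hs2 N 1
        have h9 : b N 1 = a N := by
          rw [hb]
          simp
        rwa [h9] at h8
      exact (le_two_ff (ha0 N) (ha1 N)).trans (add_le_add h7 h7)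
    have h7 := inner_le_of_le (map_mono' hM θ h6) f
    have h8 : (θ (s N + s N) : K →L[ℂ] K) f = (θ (s N) : K →L[ℂ] K) f +
        (θ (s N) : K →L[ℂ] K) f := by
      rw [map_add]
      rfl
    rw [h8, inner_add_right, Complex.add_re] at h7
    have h9 := h3 N
    rw [ha] at h7
    linarith
  have h6 := (Complex.continuous_re.tendsto _).comp (hM4 f f)
  rw [hMz'] at h6
  have h7 := ge_of_tendsto h6 (Eventually.of_forall h5)
  simp at h7
  linarith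

end iso

end Vale.Agent.P092.H108
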