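import Vale.Agent.P092.H108.Iso

/-!
Part (I) of Theorem D: if the averages of the heights of the powers of a unitary of `L(Λ)` do not
tend to zero, then there is a nonzero vector with tight orbit.
-/

namespace Vale.Agent.P092.H108
open Vale.Agent.P092.H160
open Filter Topology ContinuousLinearMap
open scoped InnerProductSpace ComplexOrder

section general

variable {H : Type*} [NormedAddCommGroup H] [InnerProductSpace ℂ H] [CompleteSpace H]

theorem exists_weak_limit {I : Type*} (U : Ultrafilter I) (v : I → H) (R : ℝ)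
    (hv : ∀ i, ‖v i‖ ≤ R) :
    ∃ w : H, ∀ ζ : H, Tendsto (fun i => inner ℂ ζ (v i)) U (𝓝 (inner ℂ ζ w)) := by
  have hlim : ∀ ζ : H, ∃ c : ℂ, c ∈ Metric.closedBall (0 : ℂ) (R * ‖ζ‖) ∧
      Tendsto (fun i => inner ℂ (v i) ζ) U (𝓝 c) := by
    intro ζ
    have hc : IsCompact (Metric.closedBall (0 : ℂ) (R * ‖ζ‖)) := isCompact_closedBall _ _
    obtain ⟨c, hc1, hc2⟩ := hc.ultrafilter_le_nhds (U.map fun i => inner ℂ (v i) ζ) (by
      rw [le_principal_iff]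
      refine Filter.Eventually.of_forall (f := (U : Filter I)) fun i => ?_
      rw [mem_closedBall_zero_iff]
      refine (norm_inner_le_norm _ _).trans ?_
      gcongr
      exact hv i)
    exact ⟨c, hc1, hc2⟩
  choose f hf1 hf2 using hlim
  let L₀ : H →ₗ[ℂ] ℂ :=
    { toFun := f
      map_add' := fun a b => by
        refine tendsto_nhds_unique (hf2 _) ?_
        refine ((hf2 a).add (hf2 b)).congr fun i => ?_
        rw [inner_add_right]
      map_smul' := fun r a => by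
        refine tendsto_nhds_unique (hf2 _) ?_
        refine ((hf2 a).const_smul r).congr fun i => ?_
        rw [inner_smul_right, smul_eq_mul] }
  let L : H →L[ℂ] ℂ := L₀.mkContinuous R (fun a => by
    have := hf1 a
    rwa [mem_closedBall_zero_iff] at this)
  refine ⟨(InnerProductSpace.toDual ℂ H).symm L, fun ζ => ?_⟩
  have h1 : inner ℂ ((InnerProductSpace.toDual ℂ H).symm L) ζ = f ζ := by
    rw [InnerProductSpace.toDual_symm_apply]
    rfl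
  have h2 := (Complex.continuous_conj.tendsto _).comp (hf2 ζ)
  rw [← h1, inner_conj_symm] at h2
  refine h2.congr fun i => ?_
  rw [Function.comp_apply, inner_conj_symm]

set_option linter.unusedSectionVars false in
theorem exists_finset_approx {ι : Type*} {f : ι → H} {x : H} (h : HasSum f x) {ε : ℝ}
    (hε : 0 < ε) : ∃ F : Finset ι, ‖x - ∑ i ∈ F, f i‖ ≤ ε := by
  have h2 := h.eventually (Metric.closedBall_mem_nhds x hε)
  obtain ⟨F0, hF0⟩ := h2.exists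
  refine ⟨F0, ?_⟩
  rw [← dist_eq_norm, dist_comm]
  exact hF0

end general

section tri

set_option linter.unusedSectionVars false

variable {X : Type}

theorem summable_sq (a : Ell2 X) : Summable fun x => ‖a x‖ ^ 2 := by
  have := lp.memℓp a
  rw [memℓp_gen_iff (by norm_num)] at this
  simpa using this

theorem norm_sq_eq (a : Ell2 X) : ‖a‖ ^ 2 = ∑' x, ‖a x‖ ^ 2 := by
  have h := lp.norm_rpow_eq_tsum (p := 2) (by norm_num) a
  simpa using h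

theorem norm_apply_le (a : Ell2 X) (x : X) : ‖a x‖ ≤ ‖a‖ :=
  lp.norm_apply_le_norm (by norm_num) a x

theorem memlp_of {f : X → ℂ} (h : Summable fun x => ‖f x‖ ^ 2) : Memℓp f 2 := by
  rw [memℓp_gen_iff (by norm_num)]
  simpa using h

/-- A square summable function as a vector. -/
noncomputable def mkE (f : X → ℂ) (h : Summable fun x => ‖f x‖ ^ 2) : Ell2 X := ⟨f, memlp_of h⟩

@[simp] theorem mkE_apply (f : X → ℂ) (h : Summable fun x => ‖f x‖ ^ 2) (x : X) :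
    mkE f h x = f x := rfl

theorem tri_summable (a : Ell2 X) : Summable fun x : X × X × X =>
    ‖a x.1 * ((starRingEnd ℂ) (a x.2.1) * a x.2.2)‖ ^ 2 := by
  have h1 := summable_sq a
  have h2 := (h1.mul_of_nonneg (h1.mul_of_nonneg h1 (fun _ => by positivity)
    (fun _ => by positivity)) (fun _ => by positivity) (fun _ => by positivity))
  simpa [mul_pow] using h2

/-- The vector `a ⊗ conj a ⊗ a`. -/
noncomputable def tri (a : Ell2 X) : Ell2 (X × X × X) := mkE _ (tri_summable a)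

theorem tri_apply (a : Ell2 X) (x : X × X × X) :
    tri a x = a x.1 * ((starRingEnd ℂ) (a x.2.1) * a x.2.2) := rfl

theorem summable_inner (a b : Ell2 X) : Summable fun x => ‖(starRingEnd ℂ) (a x) * b x‖ := by
  refine Summable.of_nonneg_of_le (fun _ => norm_nonneg _) (fun x => ?_)
    ((summable_sq a).add (summable_sq b))
  rw [norm_mul, RCLike.norm_conj]
  nlinarith [sq_nonneg (‖a x‖ - ‖b x‖), sq_nonneg (‖a x‖), sq_nonneg (‖b x‖)]

theorem inner_eq (a b : Ell2 X) : ⟪a, b⟫_ℂ = ∑' x, (starRingEnd ℂ) (a x) * b x := by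
  rw [lp.inner_eq_tsum]
  refine tsum_congr fun x => ?_
  rw [RCLike.inner_apply, mul_comm]

theorem inner_tri (a b : Ell2 X) : ⟪tri a, tri b⟫_ℂ = ⟪a, b⟫_ℂ * (⟪b, a⟫_ℂ * ⟪a, b⟫_ℂ) := by
  rw [inner_eq, inner_eq a b, inner_eq b a,
    tsum_mul_tsum_of_summable_norm (summable_inner b a) (summable_inner a b),
    tsum_mul_tsum_of_summable_norm (summable_inner a b) ?_]
  · refine tsum_congr fun x => ?_
    rw [tri_apply, tri_apply]
    simp only [map_mul, starRingEnd_self_apply]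
    ring
  · have := (summable_inner b a).mul_of_nonneg (summable_inner a b) (fun _ => norm_nonneg _)
      (fun _ => norm_nonneg _)
    simpa only [norm_mul] using this

theorem norm_tri (a : Ell2 X) : ‖tri a‖ = ‖a‖ ^ 3 := by
  have h := inner_tri a a
  simp only [inner_self_eq_norm_sq_to_K] at h
  have h2 : ‖tri a‖ ^ 2 = (‖a‖ ^ 3) ^ 2 := by
    have h3 : ‖tri a‖ ^ 2 = ‖a‖ ^ 2 * (‖a‖ ^ 2 * ‖a‖ ^ 2) := by exact_mod_cast h
    rw [h3]
    ring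
  exact (pow_left_inj₀ (norm_nonneg _) (by positivity) two_ne_zero).1 h2

theorem cub_summable (a : Ell2 X) : Summable fun x : X =>
    ‖a x * ((starRingEnd ℂ) (a x) * a x)‖ ^ 2 := by
  refine Summable.of_nonneg_of_le (fun _ => by positivity) (fun x => ?_)
    ((summable_sq a).mul_left ((‖a‖ ^ 2) ^ 2))
  have h2 := norm_apply_le a x
  rw [norm_mul, norm_mul, RCLike.norm_conj]
  have h3 : ‖a x‖ ^ 2 ≤ ‖a‖ ^ 2 := by gcongr
  calc (‖a x‖ * (‖a x‖ * ‖a x‖)) ^ 2 = (‖a x‖ ^ 2) ^ 2 * ‖a x‖ ^ 2 := by ring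
    _ ≤ _ := by gcongr

/-- The vector `|a|² a`. -/
noncomputable def cub (a : Ell2 X) : Ell2 X := mkE _ (cub_summable a)

theorem cub_apply (a : Ell2 X) (x : X) :
    cub a x = a x * ((starRingEnd ℂ) (a x) * a x) := rfl

/-- If `v` is an orthonormal family in `ℓ²(X)` then `s ↦ tri (v s)` is orthonormal. -/
theorem orthonormal_tri {ι : Type} {v : ι → Ell2 X} (hv : Orthonormal ℂ v) :
    Orthonormal ℂ fun s => tri (v s) := by
  classical
  rw [orthonormal_iff_ite] at hv ⊢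
  intro i j
  rw [inner_tri, hv i j, hv j i]
  by_cases h : i = j
  · simp [h]
  · simp [h]

theorem orthonormal_dl : Orthonormal ℂ (dl : X → Ell2 X) := by
  classical
  rw [orthonormal_iff_ite]
  intro i j
  rw [inner_dl]
  by_cases h : i = j
  · subst h; simp
  · simp [h, dl_apply_ne h]

/-- The isometry with `δ_s ↦ v_s`. -/
theorem exists_isom {K : Type*} [NormedAddCommGroup K] [InnerProductSpace ℂ K] [CompleteSpace K]
    {v : X → K} (hv : Orthonormal ℂ v) : ∃ V : Ell2 X →L[ℂ] K, (∀ a, ‖V a‖ = ‖a‖) ∧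
      ∀ (a : Ell2 X) (b : K), ⟪b, V a⟫_ℂ = ∑' x, a x * ⟪b, v x⟫_ℂ := by
  classical
  obtain ⟨V, hV⟩ : ∃ V, V = hv.orthogonalFamily.linearIsometry := ⟨_, rfl⟩
  refine ⟨V.toContinuousLinearMap, fun a => V.norm_map a, fun a b => ?_⟩
  rw [hV]
  change ⟪b, hv.orthogonalFamily.linearIsometry a⟫_ℂ = _
  have h1 := hv.orthogonalFamily.hasSum_linearIsometry a
  have h2 := (innerSL ℂ b).hasSum h1
  rw [innerSL_apply_apply] at h2
  rw [← h2.tsum_eq]
  refine tsum_congr fun x => ?_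
  rw [innerSL_apply_apply, LinearIsometry.toSpanSingleton_apply, inner_smul_right]

end tri

section main

set_option linter.unusedSectionVars false
set_option linter.unusedVariables false

variable {Λ : Type} [Group Λ] {u : ℤ → (Ell2 Λ →L[ℂ] Ell2 Λ)}

theorem u_norm (h0 : u 0 = 1) (hadd : ∀ m n, u (m + n) = u m * u n)
    (hstar : ∀ n, star (u n) = u (-n)) (n : ℤ) (a : Ell2 Λ) : ‖u n a‖ = ‖a‖ := by
  have h1 : ⟪u n a, u n a⟫_ℂ = ⟪a, a⟫_ℂ := by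
    have h2 := star_apply_inner (u n) (u n a) a
    rw [hstar] at h2
    have h3 : u (-n) (u n a) = a := by
      have := DFunLike.congr_fun (hadd (-n) n) a
      rw [neg_add_cancel, h0] at this
      exact this.symm
    rw [h3] at h2
    exact h2.symm
  rw [inner_self_eq_norm_sq_to_K, inner_self_eq_norm_sq_to_K] at h1
  have h2 : ‖u n a‖ ^ 2 = ‖a‖ ^ 2 := by exact_mod_cast h1
  exact (pow_left_inj₀ (norm_nonneg _) (norm_nonneg _) two_ne_zero).1 h2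

theorem u_inner (h0 : u 0 = 1) (hadd : ∀ m n, u (m + n) = u m * u n)
    (hstar : ∀ n, star (u n) = u (-n)) (n : ℤ) (a b : Ell2 Λ) : ⟪u n a, u n b⟫_ℂ = ⟪a, b⟫_ℂ := by
  have h2 := star_apply_inner (u n) (u n a) b
  rw [hstar] at h2
  have h3 : u (-n) (u n a) = a := by
    have := DFunLike.congr_fun (hadd (-n) n) a
    rw [neg_add_cancel, h0] at this
    exact this.symm
  rw [h3] at h2
  exact h2.symm

theorem u_orth (h0 : u 0 = 1) (hadd : ∀ m n, u (m + n) = u m * u n)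
    (hstar : ∀ n, star (u n) = u (-n)) (n : ℤ) : Orthonormal ℂ fun s : Λ => u n (dl s) := by
  classical
  rw [orthonormal_iff_ite]
  intro i j
  rw [u_inner h0 hadd hstar]
  exact (orthonormal_iff_ite.1 orthonormal_dl) i j

/-- The form `B_j(a, ζ) = ⟨cub (u^{-j} a), u^{-j} ζ⟩`. -/
noncomputable def BB (u : ℤ → (Ell2 Λ →L[ℂ] Ell2 Λ)) (j : ℤ) (a ζ : Ell2 Λ) : ℂ :=
  ⟪cub (u (-j) a), u (-j) ζ⟫_ℂ

theorem exists_T (h0 : u 0 = 1) (hadd : ∀ m n, u (m + n) = u m * u n)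
    (hstar : ∀ n, star (u n) = u (-n)) (j : ℤ) :
    ∃ T : Ell2 Λ →L[ℂ] Ell2 (Λ × Λ × Λ), (∀ a, ‖T a‖ = ‖a‖) ∧
      ∀ a ζ : Ell2 Λ, ⟪tri a, T ζ⟫_ℂ = BB u j a ζ := by
  obtain ⟨V, hV1, hV2⟩ := exists_isom (orthonormal_tri (u_orth h0 hadd hstar j))
  refine ⟨V.comp (u (-j)), fun a => ?_, fun a ζ => ?_⟩
  · rw [ContinuousLinearMap.comp_apply, hV1, u_norm h0 hadd hstar]
  · rw [ContinuousLinearMap.comp_apply, hV2, BB, inner_eq]
    refine tsum_congr fun x => ?_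
    have h1 : (u (-j) a) x = ⟪u j (dl x), a⟫_ℂ := by
      rw [← inner_dl, ← hstar, ← star_apply_inner, star_star]
    rw [cub_apply, inner_tri, h1]
    simp only [map_mul, inner_conj_symm]
    ring

theorem BB_bound (h0 : u 0 = 1) (hadd : ∀ m n, u (m + n) = u m * u n)
    (hstar : ∀ n, star (u n) = u (-n)) (j : ℤ) (a ζ : Ell2 Λ) :
    ‖BB u j a ζ‖ ≤ ‖a‖ ^ 3 * ‖ζ‖ := by
  obtain ⟨T, h1, h2⟩ := exists_T h0 hadd hstar j
  rw [← h2]
  refine (norm_inner_le_norm _ _).trans ?_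
  rw [norm_tri, h1]

theorem BB_shift (h0 : u 0 = 1) (hadd : ∀ m n, u (m + n) = u m * u n)
    (j k : ℤ) (a ζ : Ell2 Λ) :
    BB u (j + k) (u k a) (u k ζ) = BB u j a ζ := by
  have h : ∀ b : Ell2 Λ, u (-(j + k)) (u k b) = u (-j) b := by
    intro b
    have h1 := DFunLike.congr_fun (hadd (-(j + k)) k) b
    have h2 : -(j + k) + k = -j := by ring
    rw [h2] at h1
    exact h1.symm
  rw [BB, h, h, BB]

theorem cub_rho (s : Λ) (a : Ell2 Λ) : cub (rho s a) = rho s (cub a) := by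
  ext x
  rw [cub_apply, rho_apply, rho_apply, cub_apply]

theorem inner_rho (s : Λ) (a b : Ell2 Λ) : ⟪rho s a, rho s b⟫_ℂ = ⟪a, b⟫_ℂ := by
  rw [rho, inner_rei]
  congr 1
  ext x
  simp

theorem BB_rho (hR : ∀ n s, u n * rho s = rho s * u n) (j : ℤ) (s : Λ) (a ζ : Ell2 Λ) :
    BB u j (rho s a) (rho s ζ) = BB u j a ζ := by
  have h : ∀ b : Ell2 Λ, u (-j) (rho s b) = rho s (u (-j) b) := fun b =>
    DFunLike.congr_fun (hR (-j) s) b
  rw [BB, h, h, cub_rho, inner_rho, BB]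

theorem norm_cub_le (a : Ell2 Λ) : ‖cub a‖ ≤ ‖a‖ ^ 3 := by
  refine (pow_le_pow_iff_left₀ (norm_nonneg _) (by positivity) two_ne_zero).1 ?_
  rw [norm_sq_eq]
  have h1 : ∀ x, ‖cub a x‖ ^ 2 ≤ (‖a‖ ^ 2) ^ 2 * ‖a x‖ ^ 2 := by
    intro x
    rw [cub_apply, norm_mul, norm_mul, RCLike.norm_conj]
    have h3 : ‖a x‖ ^ 2 ≤ ‖a‖ ^ 2 := by
      have := norm_apply_le a x
      gcongr
    calc (‖a x‖ * (‖a x‖ * ‖a x‖)) ^ 2 = (‖a x‖ ^ 2) ^ 2 * ‖a x‖ ^ 2 := by ring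
      _ ≤ _ := by gcongr
  calc ∑' x, ‖cub a x‖ ^ 2 ≤ ∑' x, (‖a‖ ^ 2) ^ 2 * ‖a x‖ ^ 2 :=
        Summable.tsum_le_tsum h1 (summable_sq _) ((summable_sq a).mul_left _)
    _ = (‖a‖ ^ 3) ^ 2 := by
        rw [tsum_mul_left, ← norm_sq_eq]
        ring

theorem shift_bound (g : ℤ → ℂ) (C : ℝ) (hg : ∀ j, ‖g j‖ ≤ C) (k : ℤ) :
    ∃ D : ℝ, ∀ N : ℕ, ‖∑ j ∈ Finset.range N, g (j + k) - ∑ j ∈ Finset.range N, g j‖ ≤ D := by
  have h1 : ∀ (k : ℤ) (N : ℕ), ‖∑ j ∈ Finset.range N, g (j + (k + 1)) -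
      ∑ j ∈ Finset.range N, g (j + k)‖ ≤ 2 * C := by
    intro k N
    have h2 : ∑ j ∈ Finset.range N, g (j + (k + 1)) - ∑ j ∈ Finset.range N, g (j + k) =
        g (N + k) - g k := by
      induction N with
      | zero => simp
      | succ N ih =>
        rw [Finset.sum_range_succ, Finset.sum_range_succ]
        have h3 : g ((N : ℤ) + (k + 1)) = g (((N + 1 : ℕ) : ℤ) + k) := by
          congr 1
          push_cast
          ring
        rw [h3]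
        linear_combination ih
    rw [h2]
    refine (norm_sub_le _ _).trans ?_
    linarith [hg (N + k), hg k]
  induction k using Int.induction_on with
  | zero => exact ⟨0, fun N => by simp⟩
  | succ k ih =>
    obtain ⟨D, hD⟩ := ih
    refine ⟨2 * C + D, fun N => ?_⟩
    calc _ ≤ ‖∑ j ∈ Finset.range N, g (j + ((k : ℤ) + 1)) -
          ∑ j ∈ Finset.range N, g (j + (k : ℤ))‖ +
          ‖∑ j ∈ Finset.range N, g (j + (k : ℤ)) - ∑ j ∈ Finset.range N, g j‖ :=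
          norm_sub_le_norm_sub_add_norm_sub _ _ _
      _ ≤ _ := add_le_add (h1 _ _) (hD N)
  | pred k ih =>
    obtain ⟨D, hD⟩ := ih
    refine ⟨2 * C + D, fun N => ?_⟩
    have h4 := h1 (-(k : ℤ) - 1) N
    rw [sub_add_cancel, norm_sub_rev] at h4
    calc _ ≤ ‖∑ j ∈ Finset.range N, g (j + (-(k : ℤ) - 1)) -
          ∑ j ∈ Finset.range N, g (j + (-(k : ℤ)))‖ +
          ‖∑ j ∈ Finset.range N, g (j + (-(k : ℤ))) - ∑ j ∈ Finset.range N, g j‖ :=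
          norm_sub_le_norm_sub_add_norm_sub _ _ _
      _ ≤ _ := add_le_add h4 (hD N)

theorem tendsto_avg_zero {b : ℕ → ℂ} {D : ℝ} (hb : ∀ N, ‖b N‖ ≤ D) :
    Tendsto (fun N : ℕ => (N : ℂ)⁻¹ * b N) atTop (𝓝 0) := by
  refine squeeze_zero_norm (fun N => ?_) (tendsto_const_div_atTop_nhds_zero_nat D)
  rw [norm_mul, norm_inv, Complex.norm_natCast, div_eq_inv_mul]
  gcongr
  exact hb N

/-- The key construction: vectors `η` and `ξ` such that the coefficients of `u^k η` are inner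
products of `ξ` with the vectors `tri (u^k δ)`. -/
theorem exists_vectors (h0 : u 0 = 1) (hadd : ∀ m n, u (m + n) = u m * u n)
    (hstar : ∀ n, star (u n) = u (-n)) (hR : ∀ n s, u n * rho s = rho s * u n)
    (U : Ultrafilter ℕ) (hU : (U : Filter ℕ) ≤ atTop) :
    ∃ (η : Ell2 Λ) (ξ : Ell2 (Λ × Λ × Λ)),
      Tendsto (fun N : ℕ => (N : ℂ)⁻¹ * ∑ j ∈ Finset.range N, BB u (j + 1) (dl 1) (dl 1)) U
        (𝓝 ⟪η, dl 1⟫_ℂ) ∧
      ∀ (k : ℤ) (s : Λ), (u k η) s = ⟪ξ, tri (u k (dl s⁻¹))⟫_ℂ := by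
  have hn1 : ‖(dl 1 : Ell2 Λ)‖ = 1 := norm_dl 1
  choose T hT1 hT2 using fun j => exists_T h0 hadd hstar j
  obtain ⟨ηN, hηN⟩ : ∃ ηN : ℕ → Ell2 Λ, ηN = fun N : ℕ => (N : ℂ)⁻¹ •
    ∑ j ∈ Finset.range N, u ((j : ℤ) + 1) (cub (u (-((j : ℤ) + 1)) (dl 1))) := ⟨_, rfl⟩
  obtain ⟨ξN, hξN⟩ : ∃ ξN : ℕ → Ell2 (Λ × Λ × Λ), ξN = fun N : ℕ => (N : ℂ)⁻¹ •
    ∑ j ∈ Finset.range N, T ((j : ℤ) + 1) (dl 1) := ⟨_, rfl⟩
  have hbd : ∀ {E : Type} [NormedAddCommGroup E] [NormedSpace ℂ E] (v : ℕ → E),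
      (∀ j, ‖v j‖ ≤ 1) → ∀ N : ℕ, ‖(N : ℂ)⁻¹ • ∑ j ∈ Finset.range N, v j‖ ≤ 1 := by
    intro E _ _ v hv N
    rw [norm_smul, norm_inv, Complex.norm_natCast]
    rcases Nat.eq_zero_or_pos N with h | h
    · subst h; simp
    · have h1 : ‖∑ j ∈ Finset.range N, v j‖ ≤ N := by
        refine (norm_sum_le _ _).trans ?_
        refine (Finset.sum_le_sum fun j _ => hv j).trans ?_
        simp
      have h2 : (0 : ℝ) < N := by exact_mod_cast h
      rw [inv_mul_le_iff₀ h2, mul_one]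
      exact h1
  have hη1 : ∀ N, ‖ηN N‖ ≤ 1 := by
    intro N
    rw [hηN]
    refine hbd _ (fun j => ?_) N
    rw [u_norm h0 hadd hstar]
    refine (norm_cub_le _).trans ?_
    rw [u_norm h0 hadd hstar, hn1, one_pow]
  have hξ1 : ∀ N, ‖ξN N‖ ≤ 1 := by
    intro N
    rw [hξN]
    refine hbd _ (fun j => ?_) N
    rw [hT1, hn1]
  obtain ⟨η, hη⟩ := exists_weak_limit U ηN 1 hη1
  obtain ⟨ξ, hξ⟩ := exists_weak_limit U ξN 1 hξ1
  have hηi : ∀ N ζ, ⟪ηN N, ζ⟫_ℂ =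
      (N : ℂ)⁻¹ * ∑ j ∈ Finset.range N, BB u ((j : ℤ) + 1) (dl 1) ζ := by
    intro N ζ
    rw [hηN]
    simp only [inner_smul_left, sum_inner, map_inv₀, map_natCast]
    congr 1
    refine Finset.sum_congr rfl fun j _ => ?_
    have h1 := star_apply_inner (u (-((j : ℤ) + 1))) (cub (u (-((j : ℤ) + 1)) (dl 1))) ζ
    rw [hstar, neg_neg] at h1
    rw [h1, BB]
  have hξi : ∀ N a, ⟪tri a, ξN N⟫_ℂ =
      (N : ℂ)⁻¹ * ∑ j ∈ Finset.range N, BB u ((j : ℤ) + 1) a (dl 1) := by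
    intro N a
    rw [hξN]
    simp only [inner_smul_right, inner_sum, hT2]
  have hη' : ∀ ζ, Tendsto (fun N : ℕ => (N : ℂ)⁻¹ * ∑ j ∈ Finset.range N,
      BB u ((j : ℤ) + 1) (dl 1) ζ) U (𝓝 ⟪η, ζ⟫_ℂ) := by
    intro ζ
    have h1 := (Complex.continuous_conj.tendsto _).comp (hη ζ)
    rw [inner_conj_symm] at h1
    refine h1.congr fun N => ?_
    rw [Function.comp_apply, inner_conj_symm, hηi]
  refine ⟨η, ξ, hη' (dl 1), fun k s => ?_⟩
  have h1 : (u k η) s = (starRingEnd ℂ) ⟪η, u (-k) (dl s)⟫_ℂ := by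
    rw [inner_conj_symm, ← inner_dl]
    have := star_apply_inner (u k) (dl s) η
    rw [hstar] at this
    exact this.symm
  rw [h1, ← inner_conj_symm ξ]
  congr 1
  refine tendsto_nhds_unique (hη' _) ?_
  have h2 : ∀ j : ℤ, BB u j (dl 1) (u (-k) (dl s)) = BB u (j + k) (u k (dl 1)) (dl s) := by
    intro j
    rw [← BB_shift h0 hadd j k]
    congr 1
    have := DFunLike.congr_fun (hadd k (-k)) (dl s)
    rw [add_neg_cancel, h0] at this
    exact this.symm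
  have h3 : ∀ j : ℤ, BB u j (u k (dl s⁻¹)) (dl 1) = BB u j (u k (dl 1)) (dl s) := by
    intro j
    rw [← BB_rho hR j s (u k (dl 1)) (dl s)]
    have h4 : rho s (u k (dl 1)) = u k (rho s (dl 1)) :=
      (DFunLike.congr_fun (hR k s) (dl 1)).symm
    rw [h4, rho_dl, rho_dl, one_mul, mul_inv_cancel]
  obtain ⟨g, hg⟩ : ∃ g : ℤ → ℂ, g = fun j => BB u (j + 1) (u k (dl 1)) (dl s) := ⟨_, rfl⟩
  have hgb : ∀ j, ‖g j‖ ≤ 1 := by
    intro j
    rw [hg]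
    refine (BB_bound h0 hadd hstar _ _ _).trans ?_
    rw [u_norm h0 hadd hstar, hn1, norm_dl, one_pow, one_mul]
  obtain ⟨D, hD⟩ := shift_bound g 1 hgb k
  have h5 := (tendsto_avg_zero hD).mono_left hU
  have h6 := (hξ (tri (u k (dl s⁻¹)))).add h5
  rw [add_zero] at h6
  refine h6.congr fun N => ?_
  rw [hξi]
  simp only [h3, h2]
  rw [mul_sub, hg]
  have h7 : ∀ j : ℕ, (j : ℤ) + k + 1 = (j : ℤ) + 1 + k := fun j => by ring
  simp only [h7]
  ring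

/-- The elements of `S` are uniformly approximated by vectors of bounded support. -/
def TightSet {X : Type} (S : Set (Ell2 X)) : Prop :=
  ∀ ε > 0, ∃ N : ℕ, ∀ ξ ∈ S, ∃ (F : Finset X) (η : Ell2 X),
    F.card ≤ N ∧ (∀ x ∉ F, η x = 0) ∧ ‖ξ - η‖ ≤ ε

theorem sparse {X : Type} (h : X → ℂ) (A : ℝ) (hs : Summable fun x => ‖h x‖)
    (hsum : ∑' x, ‖h x‖ ≤ A) {δ : ℝ} (hδ : 0 < δ) :
    ∃ F : Finset X, F.card ≤ ⌊A / δ⌋₊ ∧ ∀ x ∉ F, ‖h x‖ ≤ δ := by
  have h1 := hs.tendsto_cofinite_zero.eventually (gt_mem_nhds hδ)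
  rw [eventually_cofinite] at h1
  refine ⟨h1.toFinset, ?_, fun x hx => ?_⟩
  · refine Nat.le_floor ?_
    rw [le_div_iff₀ hδ]
    calc (h1.toFinset.card : ℝ) * δ = ∑ x ∈ h1.toFinset, δ := by simp
      _ ≤ ∑ x ∈ h1.toFinset, ‖h x‖ := by
          refine Finset.sum_le_sum fun x hx => ?_
          rw [Set.Finite.mem_toFinset] at hx
          exact not_lt.1 hx
      _ ≤ ∑' x, ‖h x‖ := hs.sum_le_tsum _ fun x _ => norm_nonneg _
      _ ≤ A := hsum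
  · by_contra hc
    refine hx ?_
    rw [Set.Finite.mem_toFinset]
    exact fun h2 => hc h2.le

/-- A vector which is the sum of a small `ℓ²` vector and a vector with small `ℓ¹` norm and
sup norm is close to a sparse vector. -/
theorem sparse_approx {X : Type} (ζ : Ell2 X) (h g : X → ℂ) (hζ : ∀ x, ζ x = h x + g x)
    (A : ℝ) (hs : Summable fun x => ‖h x‖) (hsum : ∑' x, ‖h x‖ ≤ A) {δ : ℝ} (hδ : 0 < δ)
    (hg : Summable fun x => ‖g x‖ ^ 2) {κ : ℝ} (hκ : 0 ≤ κ) (hgs : ∑' x, ‖g x‖ ^ 2 ≤ κ ^ 2) :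
    ∃ (F : Finset X) (η : Ell2 X), F.card ≤ ⌊A / δ⌋₊ ∧ (∀ x ∉ F, η x = 0) ∧
      ‖ζ - η‖ ≤ κ + Real.sqrt (δ * A) := by
  classical
  obtain ⟨F, hF1, hF2⟩ := sparse h A hs hsum hδ
  have hA : 0 ≤ A := (tsum_nonneg fun x => norm_nonneg _).trans hsum
  have h1 : Summable fun x => ‖(if x ∈ F then h x else 0)‖ ^ 2 := by
    refine summable_of_ne_finset_zero (s := F) fun x hx => ?_
    rw [if_neg hx]; simp
  have h3 : ∀ x, ‖(if x ∈ F then 0 else h x)‖ ^ 2 ≤ δ * ‖h x‖ := by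
    intro x
    by_cases hx : x ∈ F
    · rw [if_pos hx, norm_zero, zero_pow two_ne_zero]
      have := norm_nonneg (h x)
      positivity
    · rw [if_neg hx, sq]
      have := hF2 x hx
      gcongr
  have h2 : Summable fun x => ‖(if x ∈ F then 0 else h x)‖ ^ 2 :=
    Summable.of_nonneg_of_le (fun _ => by positivity) h3 (hs.mul_left δ)
  refine ⟨F, mkE _ h1, hF1, fun x hx => ?_, ?_⟩
  · rw [mkE_apply, if_neg hx]
  · have h4 : ζ - mkE _ h1 = mkE g hg + mkE _ h2 := by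
      ext x
      change ζ x - (if x ∈ F then h x else 0) = g x + (if x ∈ F then 0 else h x)
      rw [hζ]
      split_ifs <;> ring
    rw [h4]
    refine (norm_add_le _ _).trans (add_le_add ?_ ?_)
    · refine (pow_le_pow_iff_left₀ (norm_nonneg _) hκ two_ne_zero).1 ?_
      rw [norm_sq_eq]
      exact hgs
    · refine Real.le_sqrt_of_sq_le ?_
      rw [norm_sq_eq]
      calc ∑' x, ‖mkE _ h2 x‖ ^ 2 ≤ ∑' x, δ * ‖h x‖ :=
            Summable.tsum_le_tsum h3 h2 (hs.mul_left δ)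
        _ = δ * ∑' x, ‖h x‖ := tsum_mul_left
        _ ≤ δ * A := by gcongr

theorem summable_prod_shift (f : Ell2 Λ) (p q : Λ) :
    (Summable fun s => ‖f (p * s)‖ * ‖f (q * s)‖) ∧
      ∑' s, ‖f (p * s)‖ * ‖f (q * s)‖ ≤ ‖f‖ ^ 2 := by
  have h1 : ∀ p : Λ, Summable fun s => ‖f (p * s)‖ ^ 2 := fun p =>
    (Equiv.summable_iff (Equiv.mulLeft p)).2 (summable_sq f)
  have h2 : ∀ p : Λ, ∑' s, ‖f (p * s)‖ ^ 2 = ‖f‖ ^ 2 := fun p => by
    rw [norm_sq_eq]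
    exact Equiv.tsum_eq (Equiv.mulLeft p) (fun s => ‖f s‖ ^ 2)
  have h3 : ∀ s, ‖f (p * s)‖ * ‖f (q * s)‖ ≤ (‖f (p * s)‖ ^ 2 + ‖f (q * s)‖ ^ 2) / 2 := by
    intro s
    nlinarith [sq_nonneg (‖f (p * s)‖ - ‖f (q * s)‖)]
  have h4 : Summable fun s => (‖f (p * s)‖ ^ 2 + ‖f (q * s)‖ ^ 2) / 2 :=
    ((h1 p).add (h1 q)).div_const 2
  have h5 := Summable.of_nonneg_of_le (fun s => by positivity) h3 h4
  refine ⟨h5, (Summable.tsum_le_tsum h3 h5 h4).trans (le_of_eq ?_)⟩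
  rw [tsum_div_const, (h1 p).tsum_add (h1 q), h2, h2]
  ring

theorem tsum_sum_le (f : Ell2 Λ) (hf : ‖f‖ = 1) (F0 : Finset (Λ × Λ × Λ))
    (c : Λ × Λ × Λ → ℝ) (hc : ∀ x, 0 ≤ c x) :
    (Summable fun s => ∑ x ∈ F0, c x * (‖f (x.1 * s)‖ * ‖f (x.2.1 * s)‖)) ∧
      ∑' s, ∑ x ∈ F0, c x * (‖f (x.1 * s)‖ * ‖f (x.2.1 * s)‖) ≤ ∑ x ∈ F0, c x := by
  have h1 : ∀ x ∈ F0, Summable fun s => c x * (‖f (x.1 * s)‖ * ‖f (x.2.1 * s)‖) := by
    intro x _
    exact (summable_prod_shift f x.1 x.2.1).1.mul_left (c x)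
  refine ⟨summable_sum h1, ?_⟩
  have h2 := Summable.tsum_finsetSum h1
  rw [h2]
  refine Finset.sum_le_sum fun x _ => ?_
  rw [tsum_mul_left]
  have h5 := (summable_prod_shift f x.1 x.2.1).2
  rw [hf, one_pow] at h5
  have h6 := hc x
  calc c x * ∑' s, ‖f (x.1 * s)‖ * ‖f (x.2.1 * s)‖ ≤ c x * 1 := by gcongr
    _ = c x := mul_one _

theorem orth_inv (h0 : u 0 = 1) (hadd : ∀ m n, u (m + n) = u m * u n)
    (hstar : ∀ n, star (u n) = u (-n)) (k : ℤ) :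
    Orthonormal ℂ fun s : Λ => tri (u k (dl s⁻¹)) := by
  classical
  refine orthonormal_tri (v := fun s : Λ => u k (dl s⁻¹)) ?_
  rw [orthonormal_iff_ite]
  intro i j
  rw [u_inner h0 hadd hstar, inner_dl]
  by_cases h : i = j
  · subst h; simp
  · rw [if_neg h, dl_apply_ne]
    exact fun h2 => h (inv_injective h2)

theorem tight_of_vectors (h0 : u 0 = 1) (hadd : ∀ m n, u (m + n) = u m * u n)
    (hstar : ∀ n, star (u n) = u (-n)) (hR : ∀ n s, u n * rho s = rho s * u n)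
    {η : Ell2 Λ} {ξ : Ell2 (Λ × Λ × Λ)}
    (h : ∀ (k : ℤ) (s : Λ), (u k η) s = ⟪ξ, tri (u k (dl s⁻¹))⟫_ℂ) :
    TightSet (Set.range fun k : ℤ => u k η) := by
  classical
  intro ε hε
  -- finite approximation of `ξ`
  obtain ⟨F0, hF0⟩ : ∃ F0 : Finset (Λ × Λ × Λ),
      ‖ξ - ∑ x ∈ F0, lp.single 2 x (ξ x)‖ ≤ ε / 2 :=
    exists_finset_approx (lp.hasSum_single (p := 2) (by norm_num) ξ) (half_pos hε)
  obtain ⟨ξ0, hξ0⟩ : ∃ ξ0 : Ell2 (Λ × Λ × Λ), ξ0 = ∑ x ∈ F0, lp.single 2 x (ξ x) := ⟨_, rfl⟩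
  rw [← hξ0] at hF0
  have hinn : ∀ a, ⟪ξ0, tri a⟫_ℂ = ∑ x ∈ F0, (starRingEnd ℂ) (ξ x) * tri a x := by
    intro a
    rw [hξ0, sum_inner]
    refine Finset.sum_congr rfl fun x _ => ?_
    rw [lp.inner_single_left, RCLike.inner_apply, mul_comm]
  obtain ⟨A, hA⟩ : ∃ A : ℝ, A = ∑ x ∈ F0, ‖ξ x‖ := ⟨_, rfl⟩
  have hA0 : 0 ≤ A := by rw [hA]; exact Finset.sum_nonneg fun _ _ => norm_nonneg _
  obtain ⟨δ, hδ⟩ : ∃ δ : ℝ, δ = (ε / 2) ^ 2 / (A + 1) := ⟨_, rfl⟩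
  have hδ0 : 0 < δ := by rw [hδ]; positivity
  refine ⟨⌊A / δ⌋₊, ?_⟩
  rintro _ ⟨k, rfl⟩
  obtain ⟨f, hf⟩ : ∃ f : Ell2 Λ, f = u k (dl 1) := ⟨_, rfl⟩
  have hfn : ‖f‖ = 1 := by rw [hf, u_norm h0 hadd hstar, norm_dl]
  have hfs : ∀ s : Λ, u k (dl s⁻¹) = rho s f := by
    intro s
    have h4 : rho s (u k (dl 1)) = u k (rho s (dl 1)) :=
      (DFunLike.congr_fun (hR k s) (dl 1)).symm
    rw [hf, h4, rho_dl, one_mul]
  have htri : ∀ (s : Λ) (x : Λ × Λ × Λ), ‖tri (u k (dl s⁻¹)) x‖ ≤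
      ‖f (x.1 * s)‖ * ‖f (x.2.1 * s)‖ := by
    intro s x
    rw [hfs, tri_apply, norm_mul, norm_mul, RCLike.norm_conj, rho_apply, rho_apply, rho_apply]
    have h5 : ‖f (x.2.2 * s)‖ ≤ 1 := (norm_apply_le _ _).trans hfn.le
    have h6 := norm_nonneg (f (x.2.1 * s))
    have h7 := norm_nonneg (f (x.1 * s))
    gcongr
    nlinarith
  have hh1 : ∀ s, ‖⟪ξ0, tri (u k (dl s⁻¹))⟫_ℂ‖ ≤
      ∑ x ∈ F0, ‖ξ x‖ * (‖f (x.1 * s)‖ * ‖f (x.2.1 * s)‖) := by
    intro s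
    rw [hinn]
    refine (norm_sum_le _ _).trans (Finset.sum_le_sum fun x _ => ?_)
    rw [norm_mul, RCLike.norm_conj]
    gcongr
    exact htri s x
  obtain ⟨hh2, hh5⟩ := tsum_sum_le f hfn F0 (fun x => ‖ξ x‖) (fun x => norm_nonneg _)
  have hh3 : Summable fun s => ‖⟪ξ0, tri (u k (dl s⁻¹))⟫_ℂ‖ :=
    Summable.of_nonneg_of_le (fun _ => norm_nonneg _) hh1 hh2
  have hh4 : ∑' s, ‖⟪ξ0, tri (u k (dl s⁻¹))⟫_ℂ‖ ≤ A := by
    rw [hA]
    exact (Summable.tsum_le_tsum hh1 hh3 hh2).trans hh5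
  have horth : Orthonormal ℂ fun s : Λ => tri (u k (dl s⁻¹)) :=
    orth_inv h0 hadd hstar k
  have hg1 : Summable fun s => ‖⟪ξ - ξ0, tri (u k (dl s⁻¹))⟫_ℂ‖ ^ 2 := by
    have := horth.inner_products_summable (ξ - ξ0)
    refine this.congr fun s => ?_
    rw [norm_inner_symm]
  have hg2 : ∑' s, ‖⟪ξ - ξ0, tri (u k (dl s⁻¹))⟫_ℂ‖ ^ 2 ≤ (ε / 2) ^ 2 := by
    have h5 := horth.tsum_inner_products_le (x := ξ - ξ0)
    have h6 : ∑' s, ‖⟪ξ - ξ0, tri (u k (dl s⁻¹))⟫_ℂ‖ ^ 2 =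
        ∑' s, ‖⟪tri (u k (dl s⁻¹)), ξ - ξ0⟫_ℂ‖ ^ 2 :=
      tsum_congr fun s => by rw [norm_inner_symm]
    rw [h6]
    refine h5.trans ?_
    gcongr
  obtain ⟨F, ζ, hF, hζ1, hζ2⟩ := sparse_approx (u k η)
    (fun s => ⟪ξ0, tri (u k (dl s⁻¹))⟫_ℂ) (fun s => ⟪ξ - ξ0, tri (u k (dl s⁻¹))⟫_ℂ)
    (fun s => by rw [h, ← inner_add_left, add_sub_cancel]) A hh3 hh4 hδ0 hg1
    (half_pos hε).le hg2
  refine ⟨F, ζ, hF, hζ1, hζ2.trans ?_⟩
  have h7 : Real.sqrt (δ * A) ≤ ε / 2 := by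
    rw [Real.sqrt_le_iff]
    refine ⟨(half_pos hε).le, ?_⟩
    rw [hδ, div_mul_eq_mul_div, div_le_iff₀ (by positivity)]
    have : 0 ≤ (ε / 2) ^ 2 := by positivity
    nlinarith
  linarith

theorem u_neg_apply (hstar : ∀ n, star (u n) = u (-n))
    (hR : ∀ n s, u n * rho s = rho s * u n) (n : ℤ) (x : Λ) :
    (u (-n) (dl 1)) x = (starRingEnd ℂ) ((u n (dl 1)) x⁻¹) := by
  have h1 : (u (-n) (dl 1)) x = ⟪u n (dl x), dl 1⟫_ℂ := by
    rw [← inner_dl, ← hstar, ← star_apply_inner, star_star]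
  have h2 : u n (dl x) = rho x⁻¹ (u n (dl 1)) := by
    have h4 : rho x⁻¹ (u n (dl 1)) = u n (rho x⁻¹ (dl 1)) :=
      (DFunLike.congr_fun (hR n x⁻¹) (dl 1)).symm
    rw [h4, rho_dl, one_mul, inv_inv]
  rw [h1, h2, ← inner_conj_symm, inner_dl, rho_apply, one_mul]

theorem pow_four_le (hstar : ∀ n, star (u n) = u (-n))
    (hR : ∀ n s, u n * rho s = rho s * u n) (n : ℤ) (x : Λ) :
    ‖(u n (dl 1)) x‖ ^ 4 ≤ (BB u n (dl 1) (dl 1)).re := by
  obtain ⟨v, hv⟩ : ∃ v : Ell2 Λ, v = u (-n) (dl 1) := ⟨_, rfl⟩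
  have h1 : ‖(u n (dl 1)) x‖ = ‖v x⁻¹‖ := by
    rw [hv, u_neg_apply hstar hR, inv_inv, RCLike.norm_conj]
  have h2 : ∀ y, (starRingEnd ℂ) (cub v y) * v y = ((‖v y‖ ^ 4 : ℝ) : ℂ) := by
    intro y
    have h3 : (starRingEnd ℂ) (v y) * v y = ((‖v y‖ ^ 2 : ℝ) : ℂ) := by
      rw [RCLike.conj_mul]
      norm_cast
    rw [cub_apply, map_mul, map_mul, starRingEnd_self_apply]
    calc _ = ((starRingEnd ℂ) (v y) * v y) * ((starRingEnd ℂ) (v y) * v y) := by ring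
      _ = _ := by
        rw [h3, ← Complex.ofReal_mul]
        congr 1
        ring
  have h4 : BB u n (dl 1) (dl 1) = ∑' y, ((‖v y‖ ^ 4 : ℝ) : ℂ) := by
    rw [BB, ← hv, inner_eq]
    exact tsum_congr h2
  have h5 : Summable fun y => ‖v y‖ ^ 4 := by
    have := summable_inner (cub v) v
    refine this.congr fun y => ?_
    rw [h2, Complex.norm_real, Real.norm_of_nonneg (by positivity)]
  rw [h1, h4, ← Complex.ofReal_tsum, Complex.ofReal_re]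
  exact h5.le_tsum x⁻¹ fun y _ => by positivity

/-- **Part (I).** -/
theorem part_one (h0 : u 0 = 1) (hadd : ∀ m n, u (m + n) = u m * u n)
    (hstar : ∀ n, star (u n) = u (-n)) (hR : ∀ n s, u n * rho s = rho s * u n)
    (hnot : ¬ Tendsto (fun N : ℕ => (∑ k ∈ Finset.range N,
      ⨆ s, ‖(u ((k : ℤ) + 1) (dl 1) : Ell2 Λ) s‖) / N) atTop (𝓝 0)) :
    ∃ ξ : Ell2 Λ, ξ ≠ 0 ∧ TightSet (Set.range fun k : ℤ => u k ξ) := by
  obtain ⟨a, ha⟩ : ∃ a : ℕ → ℝ, a = fun k : ℕ => ⨆ s, ‖(u ((k : ℤ) + 1) (dl 1) : Ell2 Λ) s‖ :=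
    ⟨_, rfl⟩
  have ha0 : ∀ k, 0 ≤ a k := fun k => by
    rw [ha]
    exact Real.iSup_nonneg fun s => norm_nonneg _
  have ha4 : ∀ k : ℕ, a k ^ 4 ≤ (BB u ((k : ℤ) + 1) (dl 1) (dl 1)).re := by
    intro k
    obtain ⟨b, hb⟩ : ∃ b, b = (BB u ((k : ℤ) + 1) (dl 1) (dl 1)).re := ⟨_, rfl⟩
    have h1 : ∀ s, ‖(u ((k : ℤ) + 1) (dl 1) : Ell2 Λ) s‖ ^ 4 ≤ b := fun s => by
      rw [hb]
      exact pow_four_le hstar hR _ s
    have hb0 : 0 ≤ b := (by positivity : (0 : ℝ) ≤ _).trans (h1 1)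
    obtain ⟨c, hc⟩ : ∃ c, c = b ^ (1 / 4 : ℝ) := ⟨_, rfl⟩
    have hc0 : 0 ≤ c := by rw [hc]; positivity
    have hc4 : c ^ 4 = b := by
      rw [hc, ← Real.rpow_natCast, ← Real.rpow_mul hb0]
      norm_num
    have h2 : a k ≤ c := by
      rw [ha]
      refine ciSup_le fun s => ?_
      refine (pow_le_pow_iff_left₀ (norm_nonneg _) hc0 (n := 4) (by norm_num)).1 ?_
      rw [hc4]
      exact h1 s
    rw [← hb, ← hc4]
    have := ha0 k
    gcongr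
  obtain ⟨ε, hε, hfr⟩ : ∃ ε > 0, ∃ᶠ N : ℕ in atTop, ε ≤ (∑ k ∈ Finset.range N, a k) / N := by
    by_contra hcon
    push Not at hcon
    refine hnot ?_
    rw [Metric.tendsto_atTop]
    intro ε hε
    have h1 := hcon ε hε
    rw [eventually_atTop] at h1
    obtain ⟨N0, hN0⟩ := h1
    refine ⟨N0, fun N hN => ?_⟩
    have h2 := hN0 N hN
    rw [ha] at h2
    rw [Real.dist_eq, sub_zero, abs_of_nonneg]
    · exact h2
    · refine div_nonneg (Finset.sum_nonneg fun k _ => ?_) (Nat.cast_nonneg _)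
      exact Real.iSup_nonneg fun s => norm_nonneg _
  obtain ⟨S, hS⟩ : ∃ S : Set ℕ, S = {N : ℕ | ε ≤ (∑ k ∈ Finset.range N, a k) / N} := ⟨_, rfl⟩
  have hne : (atTop ⊓ 𝓟 S : Filter ℕ).NeBot := by
    rw [← frequently_mem_iff_neBot, hS]
    exact hfr
  obtain ⟨U, hU⟩ : ∃ U : Ultrafilter ℕ, (U : Filter ℕ) ≤ atTop ⊓ 𝓟 S :=
    ⟨Ultrafilter.of (atTop ⊓ 𝓟 S), Ultrafilter.of_le _⟩
  have hUS : ∀ᶠ N in (U : Filter ℕ), N ∈ S := (hU.trans inf_le_right) (mem_principal_self S)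
  obtain ⟨η, ξ, h1, h2⟩ := exists_vectors h0 hadd hstar hR U (hU.trans inf_le_left)
  refine ⟨η, ?_, tight_of_vectors h0 hadd hstar hR h2⟩
  intro hη
  have h3 := (Complex.continuous_re.tendsto _).comp h1
  rw [hη, inner_zero_left, Complex.zero_re] at h3
  have h4 : ε ^ 4 ≤ 0 := by
    refine ge_of_tendsto h3 ?_
    filter_upwards [hUS] with N hN
    rw [hS] at hN
    change ε ≤ (∑ k ∈ Finset.range N, a k) / N at hN
    have hN0 : 0 < (N : ℝ) := by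
      rcases Nat.eq_zero_or_pos N with h | h
      · subst h
        simp at hN
        linarith
      · exact_mod_cast h
    rw [le_div_iff₀ hN0] at hN
    have h5 : ((N : ℂ)⁻¹ * ∑ j ∈ Finset.range N, BB u ((j : ℤ) + 1) (dl 1) (dl 1)).re =
        (N : ℝ)⁻¹ * ∑ j ∈ Finset.range N, (BB u ((j : ℤ) + 1) (dl 1) (dl 1)).re := by
      rw [← Complex.re_sum, ← Complex.ofReal_natCast, ← Complex.ofReal_inv, Complex.re_ofReal_mul]
    rw [Function.comp_apply, h5, ← div_eq_inv_mul, le_div_iff₀ hN0]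
    calc ε ^ 4 * N ≤ 4 * ε ^ 3 * (∑ k ∈ Finset.range N, a k) - 3 * ε ^ 4 * N := by
          have : 0 < ε ^ 3 := by positivity
          nlinarith
      _ = ∑ k ∈ Finset.range N, (4 * ε ^ 3 * a k - 3 * ε ^ 4) := by
          rw [Finset.sum_sub_distrib, ← Finset.mul_sum]
          simp
          ring
      _ ≤ ∑ k ∈ Finset.range N, a k ^ 4 := by
          refine Finset.sum_le_sum fun k _ => ?_
          have h6 : 0 ≤ (a k - ε) ^ 2 * (a k ^ 2 + 2 * a k * ε + 3 * ε ^ 2) := by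
            have := ha0 k
            positivity
          nlinarith
      _ ≤ _ := Finset.sum_le_sum fun k _ => ha4 k
  have : 0 < ε ^ 4 := by positivity
  linarith

end main

end Vale.Agent.P092.H108
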